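import Vale.Agent.P200D.Mod

/-! Counting by layers. -/

namespace Vale.Agent.P200D

open Module P200 P200L

variable {n : ℕ}

theorem cnl_eq (E : Set (Fin (n + 1) →₀ ℕ)) (d : ℕ) (P : ℕ → Prop) [DecidablePred P] :
    cnl E d P = ∑ i ∈ Finset.range (d + 1), if P i then cnt (lay E i) (d - i) else 0 := by
  classical
  unfold cnl
  rw [Finset.card_eq_sum_card_fiberwise (f := fun β : Fin (n + 1) →₀ ℕ => β (Fin.last n))
    (t := Finset.range (d + 1))]
  · refine Finset.sum_congr rfl fun i hi => ?_
    have hi' : i ≤ d := Nat.lt_succ_iff.mp (Finset.mem_range.mp hi)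
    split_ifs with hP
    · unfold cnt
      refine Finset.card_nbij' ini (fun β => snc β i) ?_ ?_ ?_ ?_
      · intro β hβ
        simp only [Finset.coe_filter, Finset.mem_filter, Set.mem_ofPred_eq, mem_expo] at hβ ⊢
        obtain ⟨⟨h1, h2, -⟩, h4⟩ := hβ
        have h5 := degree_snc (ini β) (β (Fin.last n))
        rw [snc_ini] at h5
        refine ⟨by omega, ?_⟩
        change snc (ini β) i ∈ E
        rw [← h4, snc_ini]
        exact h2
      · intro β hβ
        simp only [Finset.coe_filter, Finset.mem_filter, Set.mem_ofPred_eq, mem_expo] at hβ ⊢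
        refine ⟨⟨?_, hβ.2, by simpa using hP⟩, by simp⟩
        rw [degree_snc]
        omega
      · intro β hβ
        simp only [Finset.coe_filter, Finset.mem_filter, Set.mem_ofPred_eq] at hβ
        change snc (ini β) i = β
        rw [← hβ.2, snc_ini]
      · intro β _
        simp
    · rw [Finset.card_eq_zero, Finset.filter_eq_empty_iff]
      intro β hβ h
      simp only [Finset.mem_filter] at hβ
      exact hP (h ▸ hβ.2.2)
  · intro β hβ
    simp only [Finset.coe_filter, Set.mem_ofPred_eq, mem_expo] at hβ
    have h5 := degree_snc (ini β) (β (Fin.last n))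
    rw [snc_ini] at h5
    simp only [Finset.coe_range, Set.mem_Iio]
    omega

theorem cnt_succ (E : Set (Fin (n + 1) →₀ ℕ)) (d : ℕ) :
    cnt E d = ∑ i ∈ Finset.range (d + 1), cnt (lay E i) (d - i) := by
  have := cnl_eq E d (fun _ => True)
  simp only [if_true] at this
  rw [← this]
  unfold cnl cnt
  congr 1
  ext β
  simp

end Vale.Agent.P200D
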