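import Mathlib

/-! The skew field of fractions of a skew polynomial ring. -/

namespace Vale.Agent.P200D

open Polynomial nonZeroDivisors

universe u v

variable {K : Type v} {L : Type u} [Field K] [Field L] [Algebra K L] (σ : L →ₐ[K] L)

/-- iterates of the twist -/
def sgn (j : ℕ) : L →+* L := (σ ^ j : L →ₐ[K] L)

lemma sgn_zero : sgn σ 0 = RingHom.id L := by ext; simp [sgn]

lemma sgn_one : sgn σ 1 = σ := by ext; simp [sgn]

lemma sgn_add (j i : ℕ) : sgn σ (j + i) = (sgn σ j).comp (sgn σ i) := by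
  ext; simp [sgn, pow_add]

lemma sgn_alg (j : ℕ) (c : K) : sgn σ j (algebraMap K L c) = algebraMap K L c :=
  (σ ^ j : L →ₐ[K] L).commutes c

/-- twisted product `P ⋆ f`, linear in `P` -/
noncomputable def ev (f : L[X]) : L[X] →ₗ[L] L[X] :=
  Polynomial.lsum fun j => LinearMap.toSpanSingleton L _ (X ^ j * f.map (sgn σ j))

lemma ev_monomial (f : L[X]) (j : ℕ) (c : L) :
    ev σ f (monomial j c) = c • (X ^ j * f.map (sgn σ j)) := by
  simp [ev, Polynomial.lsum_apply, Polynomial.sum_monomial_index]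

lemma ev_coeff (f P : L[X]) (N : ℕ) : (ev σ f P).coeff N =
    ∑ j ∈ P.support, P.coeff j * if j ≤ N then sgn σ j (f.coeff (N - j)) else 0 := by
  simp only [ev, Polynomial.lsum_apply, Polynomial.sum, finset_sum_coeff,
    LinearMap.toSpanSingleton_apply, coeff_smul, coeff_X_pow_mul', coeff_map, smul_eq_mul]

lemma ev_one (P : L[X]) : ev σ 1 P = P := by
  induction P using Polynomial.induction_on' with
  | add p q hp hq => rw [map_add, hp, hq]
  | monomial j c => rw [ev_monomial, Polynomial.map_one, mul_one, smul_eq_C_mul, C_mul_X_pow_eq_monomial]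

lemma ev_add (f g P : L[X]) : ev σ (f + g) P = ev σ f P + ev σ g P := by
  induction P using Polynomial.induction_on' with
  | add p q hp hq => rw [map_add, map_add, map_add, hp, hq]; abel
  | monomial j c => simp only [ev_monomial, Polynomial.map_add, mul_add, smul_add]

lemma ev_smul (c : K) (f P : L[X]) : ev σ (c • f) P = c • ev σ f P := by
  induction P using Polynomial.induction_on' with
  | add p q hp hq => rw [map_add, map_add, hp, hq, smul_add]
  | monomial j d =>
    rw [ev_monomial, ev_monomial, ← algebraMap_smul L c f, Polynomial.map_smul, sgn_alg,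
      mul_smul_comm, smul_comm, algebraMap_smul]

lemma ev_assoc (f Q P : L[X]) : ev σ (ev σ f Q) P = ev σ f (ev σ Q P) := by
  induction P using Polynomial.induction_on' with
  | add p q hp hq => rw [map_add, map_add, map_add, hp, hq]
  | monomial j c =>
    rw [ev_monomial, ev_monomial, map_smul]
    congr 1
    induction Q using Polynomial.induction_on' with
    | add p q hp hq => simp only [map_add, Polynomial.map_add, mul_add, hp, hq]
    | monomial i d =>
      rw [ev_monomial, Polynomial.map_monomial, X_pow_mul_monomial, ev_monomial,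
        Polynomial.map_smul, Polynomial.map_mul, Polynomial.map_pow, map_X, Polynomial.map_map,
        add_comm i j, sgn_add, mul_smul_comm, pow_add, mul_assoc]

lemma ev_eq_zero {f P : L[X]} (h : ev σ f P = 0) : P = 0 ∨ f = 0 := by
  by_contra hn
  push Not at hn
  have h1 := ev_coeff σ f P (P.natDegree + f.natDegree)
  rw [h, coeff_zero, Finset.sum_eq_single P.natDegree, if_pos (Nat.le_add_right _ _),
    Nat.add_sub_cancel_left] at h1
  · exact mul_ne_zero (leadingCoeff_ne_zero.mpr hn.1)
      ((_root_.map_ne_zero _).mpr (leadingCoeff_ne_zero.mpr hn.2)) h1.symm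
  · intro j hj hne
    have := le_natDegree_of_mem_supp j hj
    rw [if_pos (by omega), coeff_eq_zero_of_natDegree_lt (p := f) (by omega), map_zero, mul_zero]
  · intro hm
    exact absurd (natDegree_mem_support_of_nonzero hn.1) hm

lemma ev_deg {f P : L[X]} {m d : ℕ} (hf : f.natDegree ≤ d) (hP : P ∈ degreeLT L m) :
    ev σ f P ∈ degreeLT L (m + d) := by
  rw [mem_degreeLT, degree_lt_iff_coeff_zero] at hP ⊢
  intro N hN
  rw [ev_coeff]
  refine Finset.sum_eq_zero fun j hj => ?_
  have : j < m := by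
    by_contra hc
    exact mem_support_iff.mp hj (hP j (by omega))
  rw [if_pos (by omega), coeff_eq_zero_of_natDegree_lt (p := f) (by omega), map_zero, mul_zero]

/-- the skew polynomial ring, acting on itself -/
def SB : Subalgebra K (Module.End K L[X]) where
  carrier := {x | ∀ f, x f = ev σ f (x 1)}
  mul_mem' := fun {x y} hx hy f => by
    rw [Module.End.mul_apply, Module.End.mul_apply, hx, hy, ev_assoc, ← hx]
  add_mem' := fun {x y} hx hy f => by
    rw [LinearMap.add_apply, LinearMap.add_apply, map_add, ← hx, ← hy]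
  algebraMap_mem' := fun c f => by
    rw [Module.algebraMap_end_apply, Module.algebraMap_end_apply, LinearMap.map_smul_of_tower,
      ← monomial_zero_one, ev_monomial, sgn_zero]
    simp

/-- the element with a given normal form -/
noncomputable def el (P : L[X]) : SB σ :=
  ⟨{ toFun := fun f => ev σ f P
     map_add' := fun f g => ev_add σ f g P
     map_smul' := fun c f => ev_smul σ c f P }, fun f => by
    show ev σ f P = ev σ f (ev σ 1 P)
    rw [ev_one]⟩

lemma el_apply (P f : L[X]) : (el σ P).1 f = ev σ f P := rfl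

lemma SB_ext {x y : SB σ} (h : x.1 1 = y.1 1) : x = y :=
  Subtype.ext (LinearMap.ext fun f => by rw [x.2, y.2, h])

lemma SB_dom {x y : SB σ} (h : x * y = 0) : x = 0 ∨ y = 0 := by
  have h1 : x.1 (y.1 1) = 0 := congrArg (fun z : SB σ => z.1 1) h
  rw [x.2] at h1
  exact (ev_eq_zero σ h1).imp (fun h => SB_ext σ h) fun h => SB_ext σ h

lemma SB_ore (r s : SB σ) (hs : s ≠ 0) : ∃ r' s' : SB σ, s' ≠ 0 ∧ s' * r = r' * s := by
  obtain ⟨d, hd⟩ : ∃ d, d = (r.1 1).natDegree + (s.1 1).natDegree := ⟨_, rfl⟩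
  let T : (degreeLT L (d + 1) × degreeLT L (d + 1)) →ₗ[L] degreeLT L (d + 1 + d) :=
    LinearMap.codRestrict _ (ev σ (r.1 1) ∘ₗ (degreeLT L (d + 1)).subtype ∘ₗ LinearMap.fst _ _ _ -
      ev σ (s.1 1) ∘ₗ (degreeLT L (d + 1)).subtype ∘ₗ LinearMap.snd _ _ _)
      fun x => sub_mem (ev_deg σ (by omega) x.1.2) (ev_deg σ (by omega) x.2.2)
  have hr : ∀ m, Module.finrank L (degreeLT L m) = m := fun m => by
    rw [(degreeLTEquiv L m).finrank_eq]; simp
  have : ∀ m, Module.Finite L (degreeLT L m) := fun m =>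
    Module.Finite.equiv (degreeLTEquiv L m).symm
  have hk : LinearMap.ker T ≠ ⊥ := LinearMap.ker_ne_bot_of_finrank_lt (by
    rw [Module.finrank_prod, hr, hr]; omega)
  obtain ⟨x, hx, hx0⟩ := Submodule.exists_mem_ne_zero_of_ne_bot hk
  have h1 : ev σ (r.1 1) x.1 = ev σ (s.1 1) x.2 :=
    sub_eq_zero.mp (congrArg Subtype.val (LinearMap.mem_ker.mp hx))
  refine ⟨el σ x.2, el σ x.1, fun h => hx0 ?_, SB_ext σ h1⟩
  have h2 : (x.1 : L[X]) = 0 := by
    rw [← ev_one σ x.1]
    exact congrArg (fun z : SB σ => z.1 1) h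
  rw [h2, map_zero] at h1
  rcases ev_eq_zero σ h1.symm with h3 | h3
  · exact Prod.ext (Subtype.ext h2) (Subtype.ext h3)
  · exact absurd (SB_ext σ h3) hs

theorem ore_embed (K : Type v) [Field K] (B : Type u) [Ring B] [Algebra K B] (h1 : (0 : B) ≠ 1)
    (hd : ∀ x y : B, x * y = 0 → x = 0 ∨ y = 0)
    (h : ∀ r s : B, s ≠ 0 → ∃ r' s' : B, s' ≠ 0 ∧ s' * r = r' * s) :
    ∃ (D : Type u) (_ : DivisionRing D) (_ : Algebra K D) (φ : B →+* D), Function.Injective φ := by
  have : NoZeroDivisors B := ⟨fun {x y} => hd x y⟩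
  have : Nontrivial B := ⟨0, 1, h1⟩
  obtain ⟨inst⟩ : Nonempty (OreLocalization.OreSet B⁰) := by
    rw [OreLocalization.nonempty_oreSet_iff_of_noZeroDivisors]
    intro r s
    obtain ⟨r', s', h2, h3⟩ := h r s (nonZeroDivisors.ne_zero s.2)
    exact ⟨r', ⟨s', mem_nonZeroDivisors_of_ne_zero h2⟩, h3⟩
  exact ⟨OreLocalization B⁰ B, inferInstance, inferInstance, OreLocalization.numeratorRingHom,
    OreLocalization.numeratorHom_inj fun _ h => h.1⟩

/-- constants -/
noncomputable def jc : L →+* SB σ where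
  toFun c := el σ (C c)
  map_one' := SB_ext σ (by rw [el_apply, ev_one]; rfl)
  map_mul' c c' := SB_ext σ (by
    show ev σ 1 (C (c * c')) = ev σ (ev σ 1 (C c')) (C c)
    rw [ev_one, ev_one, ← monomial_zero_left (a := c), ev_monomial, sgn_zero]
    simp [smul_eq_C_mul])
  map_zero' := SB_ext σ (by rw [el_apply, ev_one]; simp)
  map_add' c c' := SB_ext σ (by
    show ev σ 1 (C (c + c')) = ev σ 1 (C c) + ev σ 1 (C c')
    rw [ev_one, ev_one, ev_one, map_add])

lemma ev_X (f : L[X]) : ev σ f X = X * f.map σ := by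
  conv_lhs => rw [← monomial_one_one_eq_X, ev_monomial, sgn_one, one_smul, pow_one]

lemma ev_C (f : L[X]) (c : L) : ev σ f (C c) = C c * f := by
  rw [← monomial_zero_left (a := c), ev_monomial, sgn_zero, Polynomial.map_id, pow_zero, one_mul,
    smul_eq_C_mul, monomial_zero_left]

lemma jc_comm (x : L) : el σ X * jc σ x = jc σ (σ x) * el σ X := by
  refine SB_ext σ ?_
  show ev σ (ev σ 1 (C x)) X = ev σ (ev σ 1 X) (C (σ x))
  rw [ev_one, ev_one, ev_X, ev_C, map_C, mul_comm]
  rfl

theorem skew : ∃ (D : Type u) (_ : DivisionRing D) (_ : Algebra K D) (ι : L →+* D) (θ : D),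
    θ ≠ 0 ∧ ∀ x, θ * ι x = ι (σ x) * θ := by
  obtain ⟨D, i1, i2, φ, hφ⟩ := ore_embed K (SB σ)
    (fun h => zero_ne_one (congrArg (fun z : SB σ => z.1 1) h)) (fun _ _ => SB_dom σ) (SB_ore σ)
  refine ⟨D, i1, i2, φ.comp (jc σ), φ (el σ X), fun h => X_ne_zero (R := L) ?_, fun x => ?_⟩
  · rw [← ev_one σ X]
    exact congrArg (fun z : SB σ => z.1 1) (hφ (h.trans (map_zero φ).symm))
  · rw [RingHom.comp_apply, RingHom.comp_apply, ← map_mul, ← map_mul, jc_comm]

end Vale.Agent.P200D
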