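import Vale.Agent.P200D.Mod
import Vale.Agent.P200D.Skew

/-! Divided differences give twisted Pascal triangles in every characteristic. -/

namespace Vale.Agent.P200D

universe u

/-- the twisted Pascal triangle -/
def Qc {k : Type*} [DivisionRing k] (t : ℕ → k) : ℕ → ℕ → k
  | 0 => fun r => Nat.rec 1 (fun _ x => x * t 0) r
  | s + 1 => fun r => Nat.rec 1 (fun r x => Qc t s (r + 1) + x * t (s + 1)) r

theorem good_of_skew {L D : Type*} [Field L] [DivisionRing D] (σ : L →+* L) (ι : L →+* D) {θ : D}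
    (h0 : θ ≠ 0) (hθ : ∀ x, θ * ι x = ι (σ x) * θ) {a : ℕ} (y : ℕ → L)
    (hy : ∀ i, σ (y i) = y (i + 1)) (ha : y a = y 0)
    (hne : ∀ i j, i < j → j < i + a → y i ≠ y j) : Good D a := by
  obtain ⟨N, hN⟩ : ∃ N : ℕ → ℕ → L,
      N = fun s r => ∏ u ∈ Finset.range s, (y 0 - y (r + 1 + u)) := ⟨_, rfl⟩
  obtain ⟨E, hE⟩ : ∃ E : ℕ → ℕ → L,
      E = fun s r => ∏ u ∈ Finset.range s, (y r - y (r + 1 + u)) := ⟨_, rfl⟩
  have hσ : ∀ s r, σ (E s r) = E s (r + 1) := fun s r => by
    simp only [hE, map_prod, map_sub, hy]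
    exact Finset.prod_congr rfl fun u _ => by rw [show r + 1 + u + 1 = r + 1 + 1 + u by omega]
  have hE0 : ∀ s r, s < a → E s r ≠ 0 := fun s r hs => by
    rw [hE]
    refine Finset.prod_ne_zero_iff.mpr fun u hu => sub_ne_zero.mpr (hne _ _ (by omega) ?_)
    have := Finset.mem_range.mp hu
    omega
  have hp : ∀ s r q, θ ^ r * ι (E s q / E s (q + 1)) = ι (E s (q + r) / E s (q + r + 1)) * θ ^ r := by
    intro s r
    induction r with
    | zero => simp
    | succ r ih =>
      intro q
      rw [pow_succ, mul_assoc, hθ, map_div₀, hσ, hσ, ← mul_assoc, ih, mul_assoc,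
        show q + 1 + r = q + (r + 1) by omega]
  obtain ⟨t, ht⟩ : ∃ t : ℕ → D, t = fun s => ι (E s 0 / E s (0 + 1)) * θ := ⟨_, rfl⟩
  have q1 : ∀ s, Qc t s 0 = 1 := fun s => by cases s <;> rfl
  have q2 : ∀ r, Qc t 0 (r + 1) = Qc t 0 r * t 0 := fun _ => rfl
  have q3 : ∀ s r, Qc t (s + 1) (r + 1) = Qc t s (r + 1) + Qc t (s + 1) r * t (s + 1) :=
    fun _ _ => rfl
  have key : ∀ s r, s < a → Qc t s r = ι (N s r / E s r) * θ ^ r := by
    intro s
    induction s with
    | zero =>
      intro r _
      induction r with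
      | zero => simp [q1, hN, hE]
      | succ r ih => rw [q2, ih]; simp [ht, hN, hE, pow_succ]
    | succ s ih =>
      intro r hs
      induction r with
      | zero =>
        have : N (s + 1) 0 = E (s + 1) 0 := by rw [hN, hE]
        rw [q1, this, div_self (hE0 _ _ hs)]
        simp
      | succ r ih2 =>
        rw [q3, ih _ (by omega), ih2, ht]
        simp only
        rw [mul_assoc, ← mul_assoc (θ ^ r), hp, mul_assoc, ← pow_succ, ← mul_assoc, ← map_mul,
          ← add_mul, ← map_add, zero_add]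
        congr 2
        have e1 : N (s + 1) (r + 1) = N s (r + 1) * (y 0 - y (r + 1 + 1 + s)) := by
          rw [hN]; exact Finset.prod_range_succ _ _
        have e2 : E (s + 1) (r + 1) = E s (r + 1) * (y (r + 1) - y (r + 1 + 1 + s)) := by
          rw [hE]; exact Finset.prod_range_succ _ _
        have e3 : N (s + 1) r = N s (r + 1) * (y 0 - y (r + 1)) := by
          rw [hN]
          simp only
          rw [Finset.prod_range_succ']
          congr 1
          exact Finset.prod_congr rfl fun u _ => by rw [show r + 1 + (u + 1) = r + 1 + 1 + u by omega]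
        have n1 := hE0 (s + 1) r hs
        have n2 := hE0 s (r + 1) (by omega)
        have n3 : y (r + 1) - y (r + 1 + 1 + s) ≠ 0 := sub_ne_zero.mpr (hne _ _ (by omega) (by omega))
        rw [e1, e2, e3]
        field_simp
        ring
  refine ⟨t, Qc t, q1, q2, q3, fun s r hs hr h => ?_, fun s h => ?_⟩
  · have : N s r = 0 := by
      rw [hN]
      refine Finset.prod_eq_zero (Finset.mem_range.mpr (show s - 1 < s by omega)) ?_
      rw [show r + 1 + (s - 1) = a by omega, ha, sub_self]
    rw [key s r (by omega), this]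
    simp
  · rw [key s 1 (by omega)]
    refine mul_ne_zero ((map_ne_zero ι).mpr (div_ne_zero ?_ (hE0 _ _ (by omega))))
      (pow_ne_zero _ h0)
    rw [hN]
    refine Finset.prod_ne_zero_iff.mpr fun u hu => sub_ne_zero.mpr (hne _ _ (by omega) ?_)
    have := Finset.mem_range.mp hu
    omega

theorem exists_good (K : Type u) [Field K] :
    ∃ (D : Type u) (_ : DivisionRing D) (_ : Algebra K D), ∀ a, Good D a := by
  let e : (Σ a : ℕ, ZMod a) ≃ (Σ a : ℕ, ZMod a) :=
    Equiv.sigmaCongrRight fun a => Equiv.addRight (1 : ZMod a)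
  let R := MvPolynomial (Σ a : ℕ, ZMod a) K
  let σ : FractionRing R ≃ₐ[K] FractionRing R :=
    IsFractionRing.algEquivOfAlgEquiv (MvPolynomial.renameEquiv K e)
  obtain ⟨D, i1, i2, ι, θ, h0, hθ⟩ := skew σ.toAlgHom
  refine ⟨D, i1, i2, fun a => good_of_skew (σ.toAlgHom : FractionRing R →+* FractionRing R) ι h0 hθ
    (fun i => algebraMap R _ (MvPolynomial.X ⟨a, (i : ZMod a)⟩)) (fun i => ?_) (by simp) ?_⟩
  · show σ _ = _
    rw [IsFractionRing.algEquivOfAlgEquiv_algebraMap]
    simp [e, R]
  · intro i j hij hj h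
    have h1 := MvPolynomial.X_injective (IsFractionRing.injective R (FractionRing R) h)
    have h2 : (i : ZMod a) = j := by simpa using h1
    have h3 := (Nat.modEq_iff_dvd' hij.le).mp ((ZMod.natCast_eq_natCast_iff _ _ _).mp h2)
    exact absurd (Nat.le_of_dvd (by omega) h3) (by omega)

end Vale.Agent.P200D
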