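import Vale.Agent.P200D.MM
import Vale.Agent.P200D.Good
import Vale.Agent.P200L.Top
import Vale.Agent.P200L.LDef

/-! The lex-plus-powers ideal. -/

namespace Vale.Agent.P200D

open Module MvPolynomial TensorProduct P200 P200L

variable {n c : ℕ}

lemma Up.add {E : Set (Fin n →₀ ℕ)} (hE : Up E) (e : Fin n →₀ ℕ) : ∀ β ∈ E, β + e ∈ E := by
  induction e using Finsupp.induction_linear with
  | zero => simp
  | add e e' h h' => intro β hβ; rw [← add_assoc]; exact h' _ (h _ hβ)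
  | single i a =>
    induction a with
    | zero => simp
    | succ a ih =>
      intro β hβ
      rw [Finsupp.single_add, ← add_assoc]
      exact hE _ (ih _ hβ) i

lemma Up.le {E : Set (Fin n →₀ ℕ)} (hE : Up E) {β γ : Fin n →₀ ℕ} (hβ : β ∈ E) (h : β ≤ γ) :
    γ ∈ E := by
  obtain ⟨e, rfl⟩ := le_iff_exists_add.mp h
  exact hE.add e β hβ

/-- divisible by one of the `c` pure powers -/
def QQ (hc : c ≤ n) (a : Fin c → ℕ) (β : Fin n →₀ ℕ) : Prop := ∃ i, a i ≤ β (Fin.castLE hc i)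

theorem lpp_cmp (k : Type*) [DivisionRing k] (hc : c ≤ n) (a : Fin c → ℕ) (h0 : ∀ i, 0 < a i)
    (hmono : Monotone a) (hg : ∀ i, Good k (a i)) (hb : ∀ N, ∃ b, N < b ∧ Good k b)
    (E L : Set (Fin n →₀ ℕ)) (hE : Up E) (hQ : ∀ β, QQ hc a β → β ∈ E)
    (hL1 : ∀ β, QQ hc a β → β ∈ L)
    (hL2 : ∀ β ∈ L, ¬ QQ hc a β → ∀ γ : Fin n →₀ ℕ, γ.degree = β.degree →
      toLex β < toLex γ → γ ∈ L) (hcnt : ∀ d, cnt L d = cnt E d) :
    Up L ∧ ∀ p j, tE k E p j ≤ tE k L p j := by
  have key : ∀ N, Up {β | β ∈ L ∨ N < β.degree} ∧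
      ∀ p j, tE k {β | β ∈ E ∨ N < β.degree} p j ≤ tE k {β | β ∈ L ∨ N < β.degree} p j := by
    intro N
    obtain ⟨b, hb1, hb2⟩ := hb (N + ∑ i, a i)
    have hab : ∀ i, a i ≤ b := fun i => by
      have := Finset.single_le_sum (f := a) (fun _ _ => Nat.zero_le _) (Finset.mem_univ i)
      omega
    have hO : ∀ β : Fin n →₀ ℕ, Out (fun i => if h : (i : ℕ) < c then a ⟨i, h⟩ else b) β →
        QQ hc a β ∨ N < β.degree := by
      rintro β ⟨i, hi⟩
      simp only at hi
      split_ifs at hi with h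
      · exact Or.inl ⟨⟨i, h⟩, hi⟩
      · have := Finsupp.le_degree i β
        right; omega
    refine MM k n (fun i => if h : (i : ℕ) < c then a ⟨i, h⟩ else b) ?_ ?_ ?_ _ _ ?_ ?_ ⟨?_, ?_⟩ ?_
    · intro i i' h
      have h' : (i : ℕ) ≤ i' := h
      simp only
      split_ifs with h1 h2 h2
      · exact hmono h'
      · exact hab _
      · omega
      · exact le_rfl
    · intro i
      split_ifs
      · exact h0 _
      · omega
    · intro i
      split_ifs
      · exact hg _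
      · exact hb2
    · rintro β (hβ | hβ) i
      · exact Or.inl (hE β hβ i)
      · right; rw [degree_add_single]; omega
    · intro β hβ
      exact (hO β hβ).imp_left (hQ β)
    · intro β hβ
      exact (hO β hβ).imp_left (hL1 β)
    · rintro β (hβ | hβ) hn γ hd hlt
      · refine Or.inl (hL2 β hβ ?_ γ hd hlt)
        rintro ⟨i, hi⟩
        exact hn ⟨Fin.castLE hc i, by simpa using hi⟩
      · right; rw [hd]; exact hβ
    · intro d
      by_cases h : N < d
      · exact cnt_congr fun β hd => by simp [hd, h]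
      · rw [cnt_congr (E' := L) fun β hd => by simp [hd, h],
          cnt_congr (E' := E) (E := {β | β ∈ E ∨ N < β.degree}) fun β hd => by simp [hd, h], hcnt]
  refine ⟨fun β hβ i => ?_, fun p j => ?_⟩
  · rcases (key (β.degree + 1)).1 β (Or.inl hβ) i with h | h
    · exact h
    · rw [degree_add_single] at h; omega
  · refine (tE_mono fun β hβ _ => Or.inl hβ).trans (((key j).2 p j).trans (tE_mono ?_))
    rintro β (hβ | hβ) hd
    · exact hβ
    · omega

variable {K : Type*} [Field K]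

lemma finrank_mon {E : Set (Fin n →₀ ℕ)} (hE : Up E) (d : ℕ) :
    finrank K (ipart (Ideal.span ((fun β => (monomial β 1 : MvPolynomial (Fin n) K)) '' E)) d) =
      cnt E d := by
  classical
  obtain ⟨T, hT, e⟩ := monomial_ideal (K := K) E hE d
  rw [e, cnt]
  congr 1
  ext β
  simp [hT, mem_expo, and_comm]

theorem tt_mon (k : Type*) [DivisionRing k] [Algebra K k] {E : Set (Fin n →₀ ℕ)} (hE : Up E) (p j : ℕ) :
    tt (mX K n) (homogeneousSubmodule (Fin n) K)
      (ipart (Ideal.span ((fun β => (monomial β 1 : MvPolynomial (Fin n) K)) '' E))) p j =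
      tE k E p j := by
  have hX : ∀ i j : Fin n, Commute ((1 : k) ⊗ₜ[K] (X i : MvPolynomial (Fin n) K))
      ((1 : k) ⊗ₜ[K] X j) := fun _ _ => one_tmul_comm _ _
  have hs : ∀ l : Fin n, (1 : k) ⊗ₜ[K] (X l : MvPolynomial (Fin n) K) ∈ Submodule.span k
      (Set.range fun l => (1 : k) ⊗ₜ[K] (X l : MvPolynomial (Fin n) K)) :=
    fun l => Submodule.subset_span ⟨l, rfl⟩
  rw [← transfer (fun l => (1 : k) ⊗ₜ[K] (X l : MvPolynomial (Fin n) K))
    hX (fun i l => if i = l then 1 else 0)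
    (fun i i' _ l m => by split_ifs <;> simp) (fun i => by simp [ite_tmul]) hs _
    (fun _ => inf_le_right), tE]
  congr 1
  funext d
  refine (Submodule.eq_of_le_of_finrank_le ?_ ?_).symm
  · rw [WE, Finsupp.supported_eq_span_single, Submodule.span_le]
    rintro _ ⟨β, ⟨h1, h2⟩, rfl⟩
    refine ⟨Finsupp.single_mem_supported _ _ h2, Submodule.mem_comap.mpr ?_⟩
    rw [Finsupp.linearCombination_single, mono_X, one_smul]
    exact Submodule.tmul_mem_baseChange_of_mem _
      ⟨Ideal.subset_span ⟨β, h1, rfl⟩, isHomogeneous_monomial _ (mem_expo.mp h2)⟩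
  · rw [finrank_WE, ← finrank_mon (K := K) hE, ← finrank_bc (D := k) (ipart _ d),
      ← finrank_map_inj (Finsupp.linearCombination k (mono _ hX))]
    · have : FiniteDimensional K (ipart (Ideal.span
          ((fun β => (monomial β 1 : MvPolynomial (Fin n) K)) '' E)) d) :=
        Submodule.finiteDimensional_of_le inf_le_right
      refine Submodule.finrank_mono ?_
      rintro _ ⟨w, hw, rfl⟩
      exact hw.2
    · intro w hw h0
      exact Submodule.disjoint_def.mp (linearIndepOn_iff_disjoint.mp (mono_inj _ hX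
        (fun i => Submodule.tmul_mem_baseChange_of_mem _ (isHomogeneous_X _ _)) hs d)) w hw.1 h0

lemma QQ_up (hc : c ≤ n) (a : Fin c → ℕ) : Up {β | QQ hc a β} := by
  rintro β ⟨i, hi⟩ l
  exact ⟨i, hi.trans (by simp)⟩

lemma mem_span_mon {E : Set (Fin n →₀ ℕ)} (hE : Up E) {x : MvPolynomial (Fin n) K} :
    x ∈ Ideal.span ((fun β => (monomial β 1 : MvPolynomial (Fin n) K)) '' E) ↔
      ∀ β ∈ x.support, β ∈ E := by
  rw [mem_ideal_span_monomial_image]
  exact forall₂_congr fun β _ => ⟨fun ⟨_, h1, h2⟩ => hE.le h1 h2, fun h => ⟨β, h, le_rfl⟩⟩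

lemma pw_eq (hc : c ≤ n) (a : Fin c → ℕ) : pw K hc a =
    Ideal.span ((fun β => (monomial β 1 : MvPolynomial (Fin n) K)) '' {β | QQ hc a β}) := by
  apply le_antisymm
  · rw [pw, Ideal.span_le]
    rintro _ ⟨i, rfl⟩
    simp only [X_pow_eq_monomial]
    exact Ideal.subset_span ⟨_, ⟨i, by simp⟩, rfl⟩
  · rw [Ideal.span_le]
    rintro _ ⟨β, ⟨i, hi⟩, rfl⟩
    obtain ⟨e, rfl⟩ := le_iff_exists_add.mp (Finsupp.single_le_iff.mpr hi)
    have : (monomial (Finsupp.single (Fin.castLE hc i) (a i) + e) 1 : MvPolynomial (Fin n) K) =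
        X (Fin.castLE hc i) ^ a i * monomial e 1 := by
      rw [X_pow_eq_monomial, monomial_mul, one_mul]
    simp only [SetLike.mem_coe]
    rw [this]
    exact Ideal.mul_mem_right _ _ (Ideal.subset_span ⟨i, rfl⟩)

lemma mon_mem_pw (hc : c ≤ n) (a : Fin c → ℕ) (β : Fin n →₀ ℕ) :
    (monomial β 1 : MvPolynomial (Fin n) K) ∈ pw K hc a ↔ QQ hc a β := by
  classical
  rw [pw_eq, mem_span_mon (QQ_up hc a), support_monomial, if_neg one_ne_zero]
  simp

open Classical in
/-- the exponents of the lex-plus-powers subspace -/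
def LL (hc : c ≤ n) (a : Fin c → ℕ) (q : ℕ → ℕ) : Set (Fin n →₀ ℕ) :=
  {β | QQ hc a β ∨ ((expo n β.degree).filter fun γ => ¬ QQ hc a γ ∧ toLex β < toLex γ).card <
    q β.degree}

lemma LL_lex (hc : c ≤ n) (a : Fin c → ℕ) (q : ℕ → ℕ) : ∀ β ∈ LL hc a q, ¬ QQ hc a β →
    ∀ γ : Fin n →₀ ℕ, γ.degree = β.degree → toLex β < toLex γ → γ ∈ LL hc a q := by
  classical
  rintro β (hβ | hβ) hn γ hd hlt
  · exact absurd hβ hn
  · right
    rw [hd]
    refine lt_of_le_of_lt (Finset.card_le_card fun δ hδ => ?_) hβ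
    rw [Finset.mem_filter] at hδ ⊢
    exact ⟨hδ.1, hδ.2.1, hlt.trans hδ.2.2⟩

lemma mem_top (hc : c ≤ n) (a : Fin c → ℕ) (q : ℕ → ℕ) (β : Fin n →₀ ℕ) (d : ℕ) :
    β ∈ top (pw K hc a) d (q d) ↔ β.degree = d ∧ ¬ QQ hc a β ∧ β ∈ LL hc a q := by
  classical
  have e : {γ | γ ∈ outside (pw K hc a) d ∧ toLex β < toLex γ} =
      ((expo n d).filter fun γ => ¬ QQ hc a γ ∧ toLex β < toLex γ : Finset _) := by
    ext γ
    simp [outside, mon_mem_pw, mem_expo, and_assoc]
  unfold top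
  rw [Set.mem_setOf_eq, e, Set.ncard_coe_finset, outside, Set.mem_setOf_eq, mon_mem_pw, and_assoc]
  refine and_congr_right fun hd => and_congr_right fun hn => ?_
  subst hd
  constructor
  · intro h
    right
    convert h
  · rintro (h | h)
    · exact absurd h hn
    · convert h

lemma lpp_eq (hc : c ≤ n) (a : Fin c → ℕ) (I : Ideal (MvPolynomial (Fin n) K))
    (hU : Up (LL hc a fun d => finrank K (part I d) - finrank K (part (pw K hc a) d))) :
    (Ideal.span ((fun β => (monomial β 1 : MvPolynomial (Fin n) K)) ''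
      LL hc a fun d => finrank K (part I d) - finrank K (part (pw K hc a) d))).restrictScalars K =
      lpp I (pw K hc a) := by
  apply le_antisymm
  · intro x hx
    rw [Submodule.restrictScalars_mem, mem_span_mon hU] at hx
    rw [x.as_sum]
    refine Submodule.sum_mem _ fun β hβ => ?_
    rw [← mul_one (coeff β x), ← smul_eq_mul, ← smul_monomial]
    refine Submodule.smul_mem _ _ (Submodule.mem_iSup_of_mem β.degree ?_)
    by_cases h : QQ hc a β
    · exact Submodule.mem_sup_left ⟨(mon_mem_pw hc a β).mpr h, isHomogeneous_monomial _ rfl⟩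
    · exact Submodule.mem_sup_right (Submodule.subset_span
        ⟨β, (mem_top hc a _ β _).mpr ⟨rfl, h, hx β hβ⟩, rfl⟩)
  · refine iSup_le fun d => sup_le (fun x hx => ?_) (Submodule.span_le.mpr ?_)
    · have h : x ∈ pw K hc a := hx.1
      rw [pw_eq] at h
      exact Ideal.span_mono (Set.image_mono fun β hβ => Or.inl hβ) h
    · rintro _ ⟨β, hβ, rfl⟩
      exact Ideal.subset_span ⟨β, ((mem_top hc a _ β _).mp hβ).2.2, rfl⟩

theorem lpp_of (hc : c ≤ n) (a : Fin c → ℕ) (h2 : ∀ i, 2 ≤ a i) (hmono : Monotone a)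
    (I : Ideal (MvPolynomial (Fin n) K)) (E : Set (Fin n →₀ ℕ)) (hE : Up E)
    (hP : ∀ i : Fin c, Finsupp.single (Fin.castLE hc i) (a i) ∈ E)
    (hd : ∀ d (T : Finset (Fin n →₀ ℕ)), (∀ β, β ∈ T ↔ β ∈ E ∧ β.degree = d) →
      T.card = finrank K (ipart I d)) :
    ∃ J : Ideal (MvPolynomial (Fin n) K), J.restrictScalars K = lpp I (pw K hc a) ∧
      ((∀ p j, tt (mX K n) (homogeneousSubmodule (Fin n) K) (ipart I) p j ≤
          tt (mX K n) (homogeneousSubmodule (Fin n) K)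
          (ipart (Ideal.span ((fun β => (monomial β 1 : MvPolynomial (Fin n) K)) '' E))) p j) →
        ∀ p j, betti I p j ≤ betti J p j) := by
  classical
  have hQ : ∀ β, QQ hc a β → β ∈ E := fun β ⟨i, hi⟩ => hE.le (hP i) (Finsupp.single_le_iff.mpr hi)
  have hI : ∀ d, cnt E d = finrank K (ipart I d) := fun d =>
    hd d _ fun β => by simp [mem_expo, and_comm]
  obtain ⟨q, hq⟩ : ∃ q : ℕ → ℕ,
      q = fun d => finrank K (part I d) - finrank K (part (pw K hc a) d) := ⟨_, rfl⟩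
  have hcnt : ∀ d, cnt (LL hc a q) d = cnt E d :=
    isLex_top (QQ hc a) E hQ q fun d => by
      rw [hq, hI, ← finrank_mon (K := K) (QQ_up hc a), ← pw_eq]
      rfl
  have h0 : ∀ i, 0 < a i := fun i => by have := h2 i; omega
  obtain ⟨D, i1, i2, hD⟩ := exists_good K
  obtain ⟨hU, hT⟩ := lpp_cmp D hc a h0 hmono (fun i => hD _)
    (fun N => ⟨N + 1, Nat.lt_succ_self N, hD _⟩) E (LL hc a q) hE hQ
    (fun β h => Or.inl h) (LL_lex hc a q) hcnt
  refine ⟨Ideal.span ((fun β => (monomial β 1 : MvPolynomial (Fin n) K)) '' LL hc a q),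
    by subst hq; exact lpp_eq hc a I hU, fun ht => betti_le _ _ (fun d => ?_) fun p j => ?_⟩
  · rw [finrank_mon hU, hcnt, hI]
  · refine (ht p j).trans ?_
    rw [tt_mon D hE, tt_mon D hU]
    exact hT p j

theorem lpp_main (hc : c ≤ n) (a : Fin c → ℕ) (h2 : ∀ i, 2 ≤ a i) (hmono : Monotone a)
    (htop : ∀ i j : Fin c, 2 ≤ (i : ℕ) → 2 ≤ (j : ℕ) → a i = a j)
    (f : Fin c → MvPolynomial (Fin n) K) (hf : ∀ i, (f i).IsHomogeneous (a i)) (hreg : IsReg f)
    (I : Ideal (MvPolynomial (Fin n) K)) (hI : ∀ i, f i ∈ I) :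
    ∃ J : Ideal (MvPolynomial (Fin n) K), J.restrictScalars K = lpp I (pw K hc a) ∧
      ((∀ i i', a i = a i') → ∀ p j, betti I p j ≤ betti J p j) := by
  by_cases he : ∀ i i', a i = a i'
  · obtain ⟨A, hA, hA'⟩ : ∃ A, 2 ≤ A ∧ ∀ i, a i = A := by
      rcases c with _ | c
      · exact ⟨2, le_rfl, fun i => i.elim0⟩
      · exact ⟨a 0, h2 0, fun i => he i 0⟩
    obtain ⟨E, h1, h3, h4, h5⟩ := egh_equalB hc hA f (fun i => hA' i ▸ hf i) hreg I hI
    obtain ⟨J, j1, j2⟩ := lpp_of hc a h2 hmono I E h1 (fun i => hA' i ▸ h3 _ i.2) h4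
    exact ⟨J, j1, fun _ => j2 h5⟩
  · obtain ⟨E, h1, h3, h4⟩ := P200M.egh_two hc a h2 hmono htop f hf hreg I hI
    obtain ⟨J, j1, -⟩ := lpp_of hc a h2 hmono I E h1 h3 h4
    exact ⟨J, j1, fun h => absurd h he⟩

end Vale.Agent.P200D
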