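import Vale.Agent.P200D.Mod

/-! Green type comparison of a lex set with a stable set. -/

namespace Vale.Agent.P200D

open Module P200 P200L

variable {n : ℕ}

lemma green_lt {N : ℕ} (b g : Fin N →₀ ℕ) :
    toLex b < toLex g ↔ ∃ i, (∀ j < i, b j = g j) ∧ b i < g i := Finsupp.Lex.lt_iff

lemma green_claim {a : Fin (n + 1) → ℕ} {U : Set (Fin (n + 1) →₀ ℕ)} (hS : Stab a U)
    (hl : ∀ i < a (Fin.last n), IsLex (fun l => a l.castSucc) (lay U i))
    {m : Fin (n + 1) →₀ ℕ} (hm : ¬ Out a m) (t : ℕ) :
    ∀ m' ∈ U, ¬ Out a m' → m'.degree = m.degree → toLex m' < toLex m →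
      m' (Fin.last n) = m (Fin.last n) + t → m ∈ U := by
  have hm1 : ∀ i, m i < a i := fun i => not_le.mp fun h => hm ⟨i, h⟩
  induction t with
  | zero =>
    intro m' hU hO hd hlt hz
    rw [add_zero] at hz
    obtain ⟨r, hr1, hr2⟩ := (green_lt _ _).mp hlt
    have hrz : r ≠ Fin.last n := by
      rintro rfl
      omega
    obtain ⟨r, rfl⟩ := Fin.exists_castSucc_eq.mpr hrz
    have h1 : ini m' ∈ lay U (m (Fin.last n)) := by
      show snc _ _ ∈ U
      rw [← hz, snc_ini]
      exact hU
    have h2 := (hl _ (hm1 _)).2 _ h1 (fun ⟨i, hi⟩ => hO ⟨i.castSucc, hi⟩) (ini m) (by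
      have e1 := degree_snc (ini m) (m (Fin.last n))
      have e2 := degree_snc (ini m') (m' (Fin.last n))
      rw [snc_ini] at e1 e2
      omega) ((green_lt _ _).mpr ⟨r, fun j hj => hr1 _ (Fin.castSucc_lt_castSucc_iff.mpr hj), hr2⟩)
    have h3 : snc (ini m) (m (Fin.last n)) ∈ U := h2
    rwa [snc_ini] at h3
  | succ t ih =>
    intro m' hU hO hd hlt hz
    have hm2 : ∀ i, m' i < a i := fun i => not_le.mp fun h => hO ⟨i, h⟩
    obtain ⟨r, hr1, hr2⟩ := (green_lt _ _).mp hlt
    have hrz : r ≠ Fin.last n := by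
      rintro rfl
      omega
    obtain ⟨r, rfl⟩ := Fin.exists_castSucc_eq.mpr hrz
    obtain ⟨γ, rfl⟩ : ∃ γ, m' = γ + Finsupp.single (Fin.last n) 1 := by
      refine ⟨m' - Finsupp.single (Fin.last n) 1, (tsub_add_cancel_of_le ?_).symm⟩
      rw [Finsupp.single_le_iff]
      omega
    have c1 : ∀ j : Fin n, (γ + Finsupp.single (Fin.last n) 1 : Fin (n + 1) →₀ ℕ) j.castSucc =
        γ j.castSucc := fun j => by
      simp [Finsupp.single_apply, (Fin.castSucc_lt_last j).ne']
    have c2 : (γ + Finsupp.single (Fin.last n) 1 : Fin (n + 1) →₀ ℕ) (Fin.last n) =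
        γ (Fin.last n) + 1 := by simp
    have c3 : ∀ s : Fin n, (γ + Finsupp.single s.castSucc 1 : Fin (n + 1) →₀ ℕ) (Fin.last n) =
        γ (Fin.last n) := fun s => by
      simp [Finsupp.single_apply, (Fin.castSucc_lt_last s).ne]
    have c4 : ∀ s : Fin n, (γ + Finsupp.single s.castSucc 1 : Fin (n + 1) →₀ ℕ) s.castSucc =
        γ s.castSucc + 1 := fun s => by simp
    have c5 : ∀ s j : Fin n, j ≠ s →
        (γ + Finsupp.single s.castSucc 1 : Fin (n + 1) →₀ ℕ) j.castSucc = γ j.castSucc :=
      fun s j h => by simp [Finsupp.single_apply, h.symm]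
    have hin : ∀ s : Fin n, γ + Finsupp.single s.castSucc 1 ∈ U := fun s =>
      hS γ s hU (by have := hm2 (Fin.last n); omega)
    have hdeg : ∀ s : Fin n, (γ + Finsupp.single s.castSucc 1).degree = m.degree := fun s => by
      rw [← hd]
      simp
    have hno : ∀ s : Fin n, γ s.castSucc + 1 < a s.castSucc →
        ¬ Out a (γ + Finsupp.single s.castSucc 1) := by
      rintro s hs ⟨i, hi⟩
      induction i using Fin.lastCases with
      | last =>
        have := hm2 (Fin.last n)
        rw [c3] at hi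
        omega
      | cast i =>
        by_cases h : i = s
        · subst h
          rw [c4] at hi
          omega
        · have := hm2 i.castSucc
          rw [c5 s i h] at hi
          rw [c1] at this
          omega
    have hr1' : ∀ j < r, γ j.castSucc = m j.castSucc := fun j hj => by
      rw [← c1]
      exact hr1 _ (Fin.castSucc_lt_castSucc_iff.mpr hj)
    rw [c1] at hr2
    rw [c2] at hz
    have hlow : ∀ s : Fin n, r ≤ s → ∀ j < r.castSucc,
        (γ + Finsupp.single s.castSucc 1 : Fin (n + 1) →₀ ℕ) j = m j := by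
      intro s hs j hj
      obtain ⟨j, rfl⟩ := Fin.exists_castSucc_eq.mpr (hj.trans (Fin.castSucc_lt_last r)).ne
      have hj' := Fin.castSucc_lt_castSucc_iff.mp hj
      rw [c5 s j (hj'.trans_le hs).ne, hr1' j hj']
    by_cases hA : ∃ s : Fin n, r < s ∧ γ s.castSucc + 1 < a s.castSucc
    · obtain ⟨s, hs1, hs2⟩ := hA
      refine ih _ (hin s) (hno s hs2) (hdeg s)
        ((green_lt _ _).mpr ⟨r.castSucc, hlow s hs1.le, ?_⟩) (by rw [c3]; omega)
      rw [c5 s r hs1.ne]
      exact hr2
    · push Not at hA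
      by_cases hB : γ r.castSucc + 1 < m r.castSucc
      · refine ih _ (hin r) (hno r (hB.trans (hm1 _))) (hdeg r)
          ((green_lt _ _).mpr ⟨r.castSucc, hlow r le_rfl, ?_⟩) (by rw [c3]; omega)
        rw [c4]
        exact hB
      · have hle : ∀ i ∈ Finset.univ,
            m i ≤ (γ + Finsupp.single r.castSucc 1 : Fin (n + 1) →₀ ℕ) i := by
          intro i _
          induction i using Fin.lastCases with
          | last => rw [c3]; omega
          | cast i =>
            rcases lt_trichotomy i r with h | h | h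
            · rw [c5 r i h.ne, hr1' i h]
            · subst h
              rw [c4]
              omega
            · have := hA i h
              have := hm1 i.castSucc
              rw [c5 r i h.ne']
              omega
        have hd' := hdeg r
        rw [Finsupp.degree_eq_sum, Finsupp.degree_eq_sum] at hd'
        have := (Finset.sum_eq_sum_iff_of_le hle).mp hd'.symm
        have e : m = γ + Finsupp.single r.castSucc 1 :=
          Finsupp.ext fun i => this i (Finset.mem_univ i)
        rw [e]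
        exact hin r

lemma green_split (E : Set (Fin (n + 1) →₀ ℕ)) (d κ : ℕ) :
    cnl E d (· < κ) + cnl E d (fun x => ¬ x < κ) = cnt E d := by
  classical
  unfold cnl cnt
  rw [← Finset.card_filter_add_card_filter_not
    (s := (expo (n + 1) d).filter (· ∈ E)) (fun β => β (Fin.last n) < κ),
    Finset.filter_filter, Finset.filter_filter]
  congr 1 <;> congr 1 <;> ext β <;> simp

lemma green_ex {E F : Set (Fin (n + 1) →₀ ℕ)} {d : ℕ} {P : ℕ → Prop}
    (h : cnl E d P < cnl F d P) :
    ∃ β, β.degree = d ∧ β ∈ F ∧ P (β (Fin.last n)) ∧ β ∉ E := by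
  classical
  unfold cnl at h
  obtain ⟨β, h1, h2⟩ := Finset.exists_mem_notMem_of_card_lt_card h
  simp only [Finset.mem_filter, not_and] at h1 h2
  exact ⟨β, mem_expo.mp h1.1, h1.2.1, h1.2.2, fun h3 => h2 h1.1 h3 h1.2.2⟩

theorem green {a : Fin (n + 1) → ℕ} {L U : Set (Fin (n + 1) →₀ ℕ)} (h : IsLex a L)
    (hO : ∀ β, Out a β → β ∈ U) (hS : Stab a U)
    (hl : ∀ i < a (Fin.last n), IsLex (fun l => a l.castSucc) (lay U i)) (d : ℕ)
    (hc : cnt L d = cnt U d) (κ : ℕ) : cnl L d (· < κ) ≤ cnl U d (· < κ) := by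
  by_contra hlt
  rw [not_le] at hlt
  have e1 := green_split L d κ
  have e2 := green_split U d κ
  obtain ⟨m, d1, m1, m2, m3⟩ := green_ex hlt
  obtain ⟨m', d2, n1, n2, n3⟩ := green_ex (E := L) (F := U) (d := d)
    (P := fun x => ¬ x < κ) (by omega)
  have o1 : ¬ Out a m := fun ho => m3 (hO _ ho)
  have o2 : ¬ Out a m' := fun ho => n3 (h.1 _ ho)
  have hlt' : toLex m' < toLex m := by
    rcases lt_trichotomy (toLex m') (toLex m) with h1 | h1 | h1
    · exact h1
    · exact absurd (toLex.injective h1 ▸ m1) n3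
    · exact absurd (h.2 m m1 o1 m' (d2.trans d1.symm) h1) n3
  exact m3 (green_claim hS hl o1 (m' (Fin.last n) - m (Fin.last n)) m' n1 o2 (d2.trans d1.symm)
    hlt' (by omega))

end Vale.Agent.P200D
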