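import Vale.Agent.P200D.Mod

/-! The twisted change of the last variable preserves the Koszul ranks. -/

namespace Vale.Agent.P200D

open Module P200 P200L

variable {n : ℕ}

theorem tri_inj {k : Type*} [DivisionRing k]
    (Ψ : ((Fin (n + 1) →₀ ℕ) →₀ k) →ₗ[k] ((Fin (n + 1) →₀ ℕ) →₀ k))
    (h7 : ∀ β γ, Ψ (Finsupp.single β 1) γ ≠ 0 → γ = β ∨ γ (Fin.last n) < β (Fin.last n))
    (h8 : ∀ β, Ψ (Finsupp.single β 1) β = 1) (κ : ℕ) (v : (Fin (n + 1) →₀ ℕ) →₀ k)
    (hv : ∀ β ∈ v.support, κ ≤ β (Fin.last n)) (h0 : ∀ γ, κ ≤ γ (Fin.last n) → Ψ v γ = 0) :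
    v = 0 := by
  by_contra hne
  obtain ⟨β, hβ, hm⟩ := Finset.exists_max_image v.support (fun β => β (Fin.last n))
    (Finsupp.support_nonempty_iff.2 hne)
  have e : Ψ v β = ∑ δ ∈ v.support, v δ * Ψ (Finsupp.single δ 1) β := by
    conv_lhs => rw [← Finsupp.sum_single v, Finsupp.sum, map_sum, Finsupp.finsetSum_apply]
    refine Finset.sum_congr rfl fun δ _ => ?_
    rw [← mul_one (v δ), ← smul_eq_mul, ← Finsupp.smul_single, map_smul, Finsupp.smul_apply,
      smul_eq_mul, smul_eq_mul, mul_one]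
  rw [h0 β (hv β hβ), Finset.sum_eq_single β, h8, mul_one] at e
  · exact Finsupp.mem_support_iff.1 hβ e.symm
  · intro δ hδ hne'
    by_cases h : Ψ (Finsupp.single δ 1) β = 0
    · rw [h, mul_zero]
    · rcases h7 δ β h with h1 | h1
      · exact absurd h1.symm hne'
      · exact absurd (hm δ hδ) (not_le.2 h1)
  · exact fun h => absurd hβ h

section car
variable {m : ℕ} {R V : Type*} [DivisionRing R] [AddCommGroup V] [Module R V]

/-- removal of one index -/
def IsoA (i : Fin m) (u : Finset (Fin m) → V) (F : Finset (Fin m)) : V :=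
  if i ∈ F then 0 else sg F i • u (insert i F)

/-- replacement of the index `z` by `l` -/
def IsoN (l z : Fin m) (u : Finset (Fin m) → V) (G : Finset (Fin m)) : V :=
  if l ∈ G ∧ z ∉ G then (sg (G.erase l) z * sg (G.erase l) l) • u (insert z (G.erase l)) else 0

theorem Iso_kos (T : Fin m → V →ₗ[R] V) (u : Finset (Fin m) → V) (F : Finset (Fin m)) :
    kos T u F = ∑ i, T i (IsoA i u F) := by
  rw [kos_apply, ← Finset.sum_add_sum_compl F, Finset.sum_eq_zero (s := F), zero_add]
  · refine Finset.sum_congr rfl fun i hi => ?_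
    rw [IsoA, if_neg (Finset.mem_compl.1 hi), map_zsmul]
  · intro i hi
    rw [IsoA, if_pos hi, map_zero]

theorem Iso_car {l z : Fin m} (hl : l < z) (hz : ∀ i, i ≤ z) (i : Fin m)
    (u : Finset (Fin m) → V) (G : Finset (Fin m)) :
    IsoA i (IsoN l z u) G = (if i = l then IsoA z u G else 0) + IsoN l z (IsoA i u) G := by
  have hlz := hl.ne
  by_cases hzG : z ∈ G
  · simp [IsoA, IsoN, hzG]
  by_cases hiz : i = z
  · subst hiz
    simp [IsoA, IsoN, hlz.symm]
  have hi : i < z := lt_of_le_of_ne (hz i) hiz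
  by_cases hlG : l ∈ G
  · obtain ⟨H, hH, rfl⟩ : ∃ H, l ∉ H ∧ G = insert l H :=
      ⟨G.erase l, Finset.notMem_erase _ _, (Finset.insert_erase hlG).symm⟩
    have hzH : z ∉ H := fun h => hzG (Finset.mem_insert_of_mem h)
    by_cases hil : i = l
    · subst hil
      have e : i ∉ insert z H := by simp [hH, hiz]
      simp only [IsoA, IsoN, hlG, hzG, if_true, if_false, not_false_eq_true, and_self,
        Finset.erase_insert hH, e, smul_smul, sg_insert hH, sg_insert hzH, hi, not_lt.2 hi.le,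
        Finset.insert_comm i z]
      rw [← add_smul, one_mul, mul_assoc, sg_mul_self]
      simp
    by_cases hiH : i ∈ H
    · simp [IsoA, IsoN, hiH, hil]
    have e1 : i ∉ insert l H := by simp [hiH, hil]
    have e2 : i ∉ insert z H := by simp [hiH, hiz]
    have e3 : l ∈ insert i (insert l H) := by simp
    have e4 : z ∉ insert i (insert l H) := by simp [hzH, hlz.symm, Ne.symm hiz]
    have e5 : (insert i (insert l H)).erase l = insert i H := by
      rw [Finset.insert_comm, Finset.erase_insert (by simp [hH, Ne.symm hil])]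
    simp only [IsoA, IsoN, hlG, hzG, if_true, if_false, not_false_eq_true, and_self,
      Finset.erase_insert hH, e1, e2, e3, e4, e5, hil, smul_smul, sg_insert hH, sg_insert hzH,
      sg_insert hiH, hi, not_lt.2 hi.le, Finset.insert_comm i z, zero_add]
    congr 1
    rcases lt_or_gt_of_ne hil with h | h
    · simp only [h, not_lt.2 h.le, if_true, if_false]
      ring
    · simp only [h, not_lt.2 h.le, if_true, if_false]
      ring
  · by_cases hil : i = l
    · subst hil
      have e4 : z ∉ insert i G := by simp [hzG, Ne.symm hiz]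
      simp only [IsoA, IsoN, hlG, hzG, if_true, if_false, Finset.mem_insert_self, e4,
        not_false_eq_true, and_self, false_and, Finset.erase_insert hlG, smul_smul, add_zero]
      rw [mul_left_comm, sg_mul_self, mul_one]
    · simp [IsoA, IsoN, hlG, hil, Ne.symm hil]

/-- the change of basis on chains -/
def IsoP (l z : Fin m) (τ : V →ₗ[R] V) : (Finset (Fin m) → V) →ₗ[R] (Finset (Fin m) → V) where
  toFun u G := u G + τ (IsoN l z u G)
  map_add' u v := by
    funext G
    simp only [IsoN, Pi.add_apply]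
    split_ifs
    · rw [smul_add, map_add]
      abel
    · simp
  map_smul' c u := by
    funext G
    simp only [IsoN, Pi.smul_apply, RingHom.id_apply]
    split_ifs
    · rw [smul_comm, map_smul, smul_add]
    · simp

theorem IsoP_apply (l z : Fin m) (τ : V →ₗ[R] V) (u : Finset (Fin m) → V) (G : Finset (Fin m)) :
    IsoP l z τ u G = u G + τ (IsoN l z u G) := rfl

theorem IsoP_kos {l z : Fin m} (hl : l < z) (hz : ∀ i, i ≤ z) (S T : Fin m → V →ₗ[R] V)
    (τ : V →ₗ[R] V) (h1 : ∀ v, T z v = S z v + S l (τ v)) (h2 : ∀ i, i ≠ z → T i = S i)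
    (h3 : ∀ i, i ≠ z → ∀ v, τ (S i v) = S i (τ v)) (u : Finset (Fin m) → V) :
    IsoP l z τ (kos T u) = kos S (IsoP l z τ u) := by
  funext G
  have e1 : IsoN l z (kos T u) G = ∑ i, T i (IsoN l z (IsoA i u) G) := by
    simp only [IsoN]
    split_ifs
    · simp only [Iso_kos, Finset.smul_sum, map_zsmul]
    · simp
  have e2 : ∀ i, IsoA i (IsoP l z τ u) G = IsoA i u G + τ (IsoA i (IsoN l z u) G) := fun i => by
    simp only [IsoA, IsoP_apply]
    split_ifs
    · simp
    · rw [smul_add, map_zsmul]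
  have e3 : ∀ i, τ (T i (IsoN l z (IsoA i u) G)) = S i (τ (IsoN l z (IsoA i u) G)) := fun i => by
    by_cases h : i = z
    · subst h
      simp [IsoN, IsoA]
    · rw [h2 i h, h3 i h]
  have e4 : ∀ i, T i (IsoA i u G) =
      S i (IsoA i u G) + if i = z then S l (τ (IsoA z u G)) else 0 := fun i => by
    by_cases h : i = z
    · rw [h, h1, if_pos rfl]
    · rw [h2 i h, if_neg h, add_zero]
  have e5 : ∀ i, S i (τ (if i = l then IsoA z u G else 0)) =
      if i = l then S l (τ (IsoA z u G)) else 0 := fun i => by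
    split_ifs with h
    · rw [h]
    · simp
  rw [IsoP_apply, e1, Iso_kos, Iso_kos]
  simp only [e2, map_sum, e3, e4, Iso_car hl hz, map_add, e5, Finset.sum_add_distrib,
    Finset.sum_ite_eq', Finset.mem_univ, if_true, add_assoc]

theorem IsoP_inj (l z : Fin m) (τ : V →ₗ[R] V) : Function.Injective (IsoP l z τ) := by
  rw [injective_iff_map_eq_zero]
  intro u hu
  have e : ∀ G, u G + τ (IsoN l z u G) = 0 := fun G => congrFun hu G
  have e1 : ∀ G, z ∈ G → u G = 0 := fun G h => by simpa [IsoN, h] using e G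
  funext G
  simpa [IsoN, e1] using e G

theorem IsoP_ch (l z : Fin m) (τ : V →ₗ[R] V) (U : ℕ → Submodule R V)
    [∀ d, FiniteDimensional R (U d)] (h : ∀ d, ∀ v ∈ U d, τ v ∈ U d) (p j : ℕ) :
    (ch m U p j).map (IsoP l z τ) = ch m U p j := by
  have := ch_fin (n := m) U p j
  refine Submodule.eq_of_le_of_finrank_le ?_ (le_of_eq (finrank_map_inj _ _
    fun w _ hw => (injective_iff_map_eq_zero _).1 (IsoP_inj l z τ) w hw).symm)
  rintro _ ⟨u, hu, rfl⟩
  rw [SetLike.mem_coe, mem_ch'] at hu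
  have hc : ∀ G : Finset (Fin m), l ∈ G ∧ z ∉ G → (insert z (G.erase l)).card = G.card :=
    fun G hG => by
      rw [Finset.card_insert_of_notMem fun h => hG.2 (Finset.mem_of_mem_erase h),
        Finset.card_erase_add_one hG.1]
  rw [mem_ch']
  refine ⟨fun G h1 h2 => ?_, fun G h1 => ?_⟩
  · rw [IsoP_apply, IsoN]
    refine add_mem (hu.1 G h1 h2) (h _ _ ?_)
    split_ifs with hG
    · exact zsmul_mem (hu.1 _ ((hc G hG).trans h1) h2) _
    · exact zero_mem _
  · rw [IsoP_apply, IsoN, hu.2 G h1]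
    split_ifs with hG
    · rw [hu.2 _ (by rwa [hc G hG])]
      simp
    · simp

end car

theorem tt_twist {k : Type*} [DivisionRing k] (l : Fin n)
    (Ψ M τ : ((Fin (n + 1) →₀ ℕ) →₀ k) →ₗ[k] ((Fin (n + 1) →₀ ℕ) →₀ k))
    (h1 : ∀ v, M v = sh k (n + 1) (Fin.last n) v + sh k (n + 1) l.castSucc (τ v))
    (h2 : ∀ v, (τ v).support ⊆ v.support)
    (h3 : ∀ (i : Fin n) v, τ (sh k (n + 1) i.castSucc v) = sh k (n + 1) i.castSucc (τ v))
    (h4 : ∀ v, Ψ (sh k (n + 1) (Fin.last n) v) = M (Ψ v))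
    (h5 : ∀ (i : Fin n) v, Ψ (sh k (n + 1) i.castSucc v) = sh k (n + 1) i.castSucc (Ψ v))
    (h6 : ∀ d, ∀ v ∈ Pd k (n + 1) d, Ψ v ∈ Pd k (n + 1) d) (hinj : Function.Injective Ψ)
    (E : Set (Fin (n + 1) →₀ ℕ)) (p j : ℕ) :
    tt (sh k (n + 1)) (Pd k (n + 1)) (fun d => Pd k (n + 1) d ⊓ (WE k E d).comap Ψ) p j =
      tE k E p j := by
  let T : Fin (n + 1) → _ := fun i => if i = Fin.last n then M else sh k (n + 1) i
  let Θ := IsoP l.castSucc (Fin.last n) τ ∘ₗ Ψ.compLeft (Finset (Fin (n + 1)))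
  have hW : ∀ d, WE k E d ≤ Pd k (n + 1) d := fun d =>
    Finsupp.supported_mono Set.inter_subset_right
  have : ∀ d, FiniteDimensional k (WE k E d) := fun d => Submodule.finiteDimensional_of_le (hW d)
  have hs : ∀ (s : Set (Fin (n + 1) →₀ ℕ)), ∀ v ∈ Finsupp.supported k k s,
      τ v ∈ Finsupp.supported k k s := fun s v hv β hβ => hv (h2 v hβ)
  have hΨ : ∀ d, (Pd k (n + 1) d).map Ψ = Pd k (n + 1) d := fun d =>
    Submodule.eq_of_le_of_finrank_le (Submodule.map_le_iff_le_comap.2 (h6 d))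
      (le_of_eq (finrank_map_inj _ _
        fun w _ hw => (injective_iff_map_eq_zero _).1 hinj w hw).symm)
  have hΘ : Function.Injective Θ :=
    (IsoP_inj _ _ τ).comp fun u v h => funext fun F => hinj (congrFun h F)
  have m1 : (ch (n + 1) (Pd k (n + 1)) (p + 1) j).map Θ = ch (n + 1) (Pd k (n + 1)) (p + 1) j := by
    rw [Submodule.map_comp, ch_map]
    simp only [hΨ]
    exact IsoP_ch _ _ τ _ (fun d => hs _) _ _
  have m2 : (ch (n + 1) (fun d => Pd k (n + 1) d ⊓ (WE k E d).comap Ψ) p j).map Θ =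
      ch (n + 1) (WE k E) p j := by
    have e : (fun d => (Pd k (n + 1) d ⊓ (WE k E d).comap Ψ).map Ψ) = WE k E := by
      funext d
      rw [← Submodule.map_inf_eq_map_inf_comap, hΨ]
      exact inf_eq_right.2 (hW d)
    rw [Submodule.map_comp, ch_map, e]
    exact IsoP_ch _ _ τ (WE k E) (fun d => hs _) _ _
  have hc : ∀ u, Θ (kos (sh k (n + 1)) u) = kos (sh k (n + 1)) (Θ u) := fun u => by
    simp only [Θ, LinearMap.comp_apply]
    rw [kos_comp (sh k (n + 1)) T Ψ fun i v => ?_]
    · refine IsoP_kos (Fin.castSucc_lt_last l) Fin.le_last _ T τ (fun v => ?_)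
        (fun i hi => if_neg hi) (fun i hi v => ?_) _
      · simp only [T, if_true, h1]
      · obtain ⟨i, rfl⟩ := Fin.exists_castSucc_eq.2 hi
        exact h3 i v
    · induction i using Fin.lastCases with
      | last => simp only [T, if_true, h4]
      | cast i => simp only [T, if_neg (Fin.castSucc_lt_last i).ne, h5]
  have m3 : ((ch (n + 1) (Pd k (n + 1)) (p + 1) j).map (kos (sh k (n + 1)))).map Θ =
      (ch (n + 1) (Pd k (n + 1)) (p + 1) j).map (kos (sh k (n + 1))) := by
    conv_rhs => rw [← m1]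
    rw [← Submodule.map_comp, ← Submodule.map_comp]
    congr 1
    exact LinearMap.ext hc
  unfold tE tt
  rw [← m2]
  conv_rhs => rw [← m3]
  rw [← Submodule.map_inf _ hΘ]
  exact (Submodule.equivMapOfInjective Θ hΘ _).finrank_eq

end Vale.Agent.P200D
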