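import Vale.Agent.P200D.Mod

/-! Decomposition along the last variable. -/

namespace Vale.Agent.P200D

open Module P200 P200L

variable {n : ℕ}

section lay
variable {k : Type*} [DivisionRing k]

lemma lay_inj {β γ : Fin n →₀ ℕ} {i m : ℕ} : snc β i = snc γ m ↔ β = γ ∧ i = m :=
  ⟨fun h => ⟨by simpa using congrArg ini h, by simpa using congrArg (· (Fin.last n)) h⟩,
    fun h => by rw [h.1, h.2]⟩

/-- coefficient of a power of the last variable -/
noncomputable def layCo (k : Type*) [DivisionRing k] (n i : ℕ) :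
    ((Fin (n + 1) →₀ ℕ) →₀ k) →ₗ[k] ((Fin n →₀ ℕ) →₀ k) :=
  Finsupp.lcomapDomain (fun β => snc β i) fun _ _ h => (lay_inj.1 h).1

lemma layCo_apply (i : ℕ) (w : (Fin (n + 1) →₀ ℕ) →₀ k) (β : Fin n →₀ ℕ) :
    layCo k n i w β = w (snc β i) := rfl

lemma layCo_single (i m : ℕ) (δ : Fin n →₀ ℕ) (c : k) :
    layCo k n i (Finsupp.single (snc δ m) c) = if m = i then Finsupp.single δ c else 0 := by
  classical
  ext β
  rw [layCo_apply]
  split_ifs with h <;> simp [Finsupp.single_apply, lay_inj, h]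

lemma lay_ind {P : ((Fin (n + 1) →₀ ℕ) →₀ k) → Prop} (h0 : P 0) (ha : ∀ a b, P a → P b → P (a + b))
    (hs : ∀ δ m c, P (Finsupp.single (snc δ m) c)) (w : (Fin (n + 1) →₀ ℕ) →₀ k) : P w := by
  induction w using Finsupp.induction_linear with
  | zero => exact h0
  | add a b h1 h2 => exact ha a b h1 h2
  | single γ c => rw [← snc_ini γ]; exact hs _ _ _

lemma layCo_cast (i : ℕ) (l : Fin n) (w : (Fin (n + 1) →₀ ℕ) →₀ k) :
    layCo k n i (sh k (n + 1) l.castSucc w) = sh k n l (layCo k n i w) := by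
  induction w using lay_ind with
  | h0 => simp
  | ha a b h1 h2 => simp only [map_add, h1, h2]
  | hs δ m c =>
    rw [Finsupp.lmapDomain_apply, Finsupp.mapDomain_single, snc_add_cast, layCo_single,
      layCo_single]
    split_ifs <;> simp

lemma layCo_last (i : ℕ) (w : (Fin (n + 1) →₀ ℕ) →₀ k) :
    layCo k n (i + 1) (sh k (n + 1) (Fin.last n) w) = layCo k n i w := by
  induction w using lay_ind with
  | h0 => simp
  | ha a b h1 h2 => simp only [map_add, h1, h2]
  | hs δ m c =>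
    rw [Finsupp.lmapDomain_apply, Finsupp.mapDomain_single, snc_add_last, layCo_single,
      layCo_single]
    simp

lemma layCo_zero (w : (Fin (n + 1) →₀ ℕ) →₀ k) :
    layCo k n 0 (sh k (n + 1) (Fin.last n) w) = 0 := by
  induction w using lay_ind with
  | h0 => simp
  | ha a b h1 h2 => simp only [map_add, h1, h2, add_zero]
  | hs δ m c =>
    rw [Finsupp.lmapDomain_apply, Finsupp.mapDomain_single, snc_add_last, layCo_single]
    simp

lemma layCo_em (i m : ℕ) (w : (Fin n →₀ ℕ) →₀ k) :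
    layCo k n i (w.mapDomain (snc · m)) = if m = i then w else 0 := by
  induction w using Finsupp.induction_linear with
  | zero => simp
  | add a b h1 h2 =>
    rw [Finsupp.mapDomain_add, map_add, h1, h2]
    split_ifs <;> simp
  | single γ c => rw [Finsupp.mapDomain_single, layCo_single]

lemma lay_supp {S : Set (Fin (n + 1) →₀ ℕ)} {w : (Fin (n + 1) →₀ ℕ) →₀ k} :
    w ∈ Finsupp.supported k k S ↔ ∀ i, layCo k n i w ∈ Finsupp.supported k k (lay S i) := by
  simp only [Finsupp.mem_supported']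
  refine ⟨fun h i β hβ => h _ hβ, fun h γ hγ => ?_⟩
  rw [← snc_ini γ] at hγ ⊢
  exact h _ _ hγ

/-- subsets avoiding the last index -/
abbrev layUp (F : Finset (Fin n)) : Finset (Fin (n + 1)) := F.map Fin.castSuccEmb

lemma layUp_last (F : Finset (Fin n)) : Fin.last n ∉ layUp F := by simp

lemma lay_cases (G : Finset (Fin (n + 1))) :
    (∃ F, G = layUp F) ∨ ∃ F, G = insert (Fin.last n) (layUp F) := by
  by_cases h : Fin.last n ∈ G
  · refine Or.inr ⟨Finset.univ.filter fun l => l.castSucc ∈ G, ?_⟩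
    ext m
    induction m using Fin.lastCases <;> simp [h]
  · refine Or.inl ⟨Finset.univ.filter fun l => l.castSucc ∈ G, ?_⟩
    ext m
    induction m using Fin.lastCases <;> simp [h]

/-- components without the last index -/
noncomputable def layA (k : Type*) [DivisionRing k] (n i : ℕ) :
    (Finset (Fin (n + 1)) → (Fin (n + 1) →₀ ℕ) →₀ k) →ₗ[k] (Finset (Fin n) → (Fin n →₀ ℕ) →₀ k) :=
  LinearMap.pi fun F => layCo k n i ∘ₗ LinearMap.proj (layUp F)

/-- components with the last index -/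
noncomputable def layB (k : Type*) [DivisionRing k] (n i : ℕ) :
    (Finset (Fin (n + 1)) → (Fin (n + 1) →₀ ℕ) →₀ k) →ₗ[k] (Finset (Fin n) → (Fin n →₀ ℕ) →₀ k) :=
  LinearMap.pi fun F => layCo k n i ∘ₗ LinearMap.proj (insert (Fin.last n) (layUp F))

variable (u : Finset (Fin (n + 1)) → (Fin (n + 1) →₀ ℕ) →₀ k)

lemma layA_apply (i : ℕ) (F : Finset (Fin n)) : layA k n i u F = layCo k n i (u (layUp F)) := rfl

lemma layB_apply (i : ℕ) (F : Finset (Fin n)) :
    layB k n i u F = layCo k n i (u (insert (Fin.last n) (layUp F))) := rfl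

lemma lay_kos {R V : Type*} [Ring R] [AddCommGroup V] [Module R V] {m : ℕ} (T : Fin m → V →ₗ[R] V)
    (u : Finset (Fin m) → V) (F : Finset (Fin m)) :
    kos T u F = ∑ i, if i ∈ F then 0 else sg F i • T i (u (insert i F)) := by
  rw [kos_apply, ← Finset.sum_ite_mem_eq]
  refine Finset.sum_congr rfl fun i _ => ?_
  by_cases h : i ∈ F <;> simp [h]

lemma lay_sg (F : Finset (Fin n)) (l : Fin n) : sg (layUp F) l.castSucc = sg F l := by
  unfold sg
  rw [Finset.filter_map, Finset.card_map]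
  simp [Function.comp_def]

lemma lay_sg' (F : Finset (Fin n)) : sg (layUp F) (Fin.last n) = (-1) ^ F.card := by
  unfold sg
  rw [Finset.filter_true_of_mem, Finset.card_map]
  simp

lemma lay_ins (F : Finset (Fin n)) (l : Fin n) : insert l.castSucc (layUp F) = layUp (insert l F) :=
  (Finset.map_insert Fin.castSuccEmb l F).symm

lemma layA_kos (i : ℕ) (F : Finset (Fin n)) : layA k n i (kos (sh k (n + 1)) u) F =
    kos (sh k n) (layA k n i u) F + ((-1 : ℤ) ^ F.card) •
      layCo k n i (sh k (n + 1) (Fin.last n) (u (insert (Fin.last n) (layUp F)))) := by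
  rw [layA_apply, lay_kos, lay_kos, Fin.sum_univ_castSucc, if_neg (layUp_last F), map_add, map_sum,
    map_zsmul, lay_sg']
  congr 1
  refine Finset.sum_congr rfl fun l _ => ?_
  have h : l.castSucc ∈ layUp F ↔ l ∈ F := Finset.mem_map' Fin.castSuccEmb
  by_cases hl : l ∈ F
  · rw [if_pos hl, if_pos (h.2 hl), map_zero]
  · rw [if_neg hl, if_neg (mt h.1 hl), map_zsmul, layCo_cast, lay_sg, lay_ins, layA_apply]

lemma layA_zero : layA k n 0 (kos (sh k (n + 1)) u) = kos (sh k n) (layA k n 0 u) := by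
  funext F
  rw [layA_kos, layCo_zero, smul_zero, add_zero]

lemma layA_succ (i : ℕ) (F : Finset (Fin n)) : layA k n (i + 1) (kos (sh k (n + 1)) u) F =
    kos (sh k n) (layA k n (i + 1) u) F + ((-1 : ℤ) ^ F.card) • layB k n i u F := by
  rw [layA_kos, layCo_last, layB_apply]

lemma layB_kos (i : ℕ) : layB k n i (kos (sh k (n + 1)) u) = kos (sh k n) (layB k n i u) := by
  funext F
  rw [layB_apply, lay_kos, lay_kos, Fin.sum_univ_castSucc, if_pos (Finset.mem_insert_self _ _),
    add_zero, map_sum]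
  refine Finset.sum_congr rfl fun l _ => ?_
  have h : l.castSucc ∈ insert (Fin.last n) (layUp F) ↔ l ∈ F := by simp
  by_cases hl : l ∈ F
  · rw [if_pos hl, if_pos (h.2 hl), map_zero]
  · rw [if_neg hl, if_neg (mt h.1 hl), map_zsmul, layCo_cast, sg_insert (layUp_last F),
      if_neg (not_lt.2 (Fin.le_last _)), one_mul, lay_sg, Finset.insert_comm, lay_ins, layB_apply]

lemma lay_ch {m : ℕ} {E : Set (Fin m →₀ ℕ)} {p j : ℕ} {u : Finset (Fin m) → (Fin m →₀ ℕ) →₀ k} :
    u ∈ ch m (WE k E) p j ↔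
      ∀ F β, u F β ≠ 0 → β ∈ E ∧ F.card = p ∧ β.degree + p = j := by
  rw [mem_ch']
  constructor
  · rintro ⟨h1, h2⟩ F β h
    by_cases hF : F.card = p ∧ p ≤ j
    · have h3 := h1 F hF.1 hF.2 (Finsupp.mem_support_iff.2 h)
      have h4 := mem_expo.1 (Finset.mem_coe.1 h3.2)
      exact ⟨h3.1, hF.1, by omega⟩
    · rw [h2 F hF] at h
      exact absurd rfl h
  · intro h
    refine ⟨fun F _ _ β hβ => ?_, fun F hF => ?_⟩
    · obtain ⟨h1, -, h2⟩ := h F β (Finsupp.mem_support_iff.1 hβ)
      exact ⟨h1, Finset.mem_coe.2 (mem_expo.2 (by omega))⟩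
    · ext β
      by_contra hβ
      obtain ⟨-, h1, h2⟩ := h F β hβ
      exact hF ⟨h1, by omega⟩

lemma lay_Pd (m : ℕ) : Pd k m = WE k Set.univ := by
  funext d
  rw [WE, Set.univ_inter]

lemma lay_sh (m : ℕ) (u : Finset (Fin m) → (Fin m →₀ ℕ) →₀ k) :
    kos (sh k m) (kos (sh k m) u) = 0 := by
  refine kos_kos _ (fun i j v => ?_) u
  simp only [Finsupp.lmapDomain_apply, ← Finsupp.mapDomain_comp, Function.comp_def,
    add_right_comm _ (Finsupp.single i 1)]

instance layFin {m : ℕ} (E : Set (Fin m →₀ ℕ)) (d : ℕ) : FiniteDimensional k (WE k E d) :=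
  Submodule.finiteDimensional_of_le (S₂ := Pd k m d)
    (Finsupp.supported_mono Set.inter_subset_right)

lemma lay_pi {ι V : Type*} [Fintype ι] [AddCommGroup V] [Module k V] (H : ι → Submodule k V)
    [∀ i, FiniteDimensional k (H i)] :
    finrank k (Submodule.pi Set.univ H) = ∑ i, finrank k (H i) := by
  rw [← pi_range, LinearMap.finrank_range_of_inj, Module.finrank_pi_fintype]
  intro v w h
  funext F
  exact Subtype.ext (congrFun h F)

/-- the spaces of components -/
noncomputable def layH (k : Type*) [DivisionRing k] (E : Set (Fin (n + 1) →₀ ℕ)) (p j : ℕ) :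
    ℕ → Submodule k (Finset (Fin n) → (Fin n →₀ ℕ) →₀ k)
  | 0 => (ch n (Pd k n) (p + 1) j).map (kos (sh k n)) ⊓ ch n (WE k (lay E 0)) p j
  | i + 1 => YY k (lay E (i + 1)) (lay E i) p (j - (i + 1))

lemma lay_sq (m : ℕ) {V : Type*} [AddCommGroup V] (x : V) :
    ((-1 : ℤ) ^ m) • ((-1 : ℤ) ^ m) • x = x := by
  rw [smul_smul, ← mul_pow]
  simp

lemma lay_mem {E : Set (Fin (n + 1) →₀ ℕ)} {p j : ℕ}
    {u : Finset (Fin (n + 1)) → (Fin (n + 1) →₀ ℕ) →₀ k}
    (h : u ∈ (ch (n + 1) (Pd k (n + 1)) (p + 1) j).map (kos (sh k (n + 1))) ⊓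
      ch (n + 1) (WE k E) p j) (i : ℕ) : layA k n i u ∈ layH k E p j i := by
  obtain ⟨⟨v, hv, rfl⟩, h2⟩ := h
  have h1 : layA k n i (kos (sh k (n + 1)) v) ∈ ch n (WE k (lay E i)) p (j - i) :=
    lay_ch.2 fun F β hβ => by
      obtain ⟨a1, a2, a3⟩ := lay_ch.1 h2 (layUp F) (snc β i) hβ
      rw [Finset.card_map] at a2
      rw [degree_snc] at a3
      exact ⟨a1, a2, by omega⟩
  cases i with
  | zero =>
    refine ⟨⟨layA k n 0 v, ?_, (layA_zero v).symm⟩, h1⟩
    rw [SetLike.mem_coe, lay_Pd] at hv ⊢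
    refine lay_ch.2 fun F β hβ => ?_
    obtain ⟨-, a2, a3⟩ := lay_ch.1 hv (layUp F) (snc β 0) hβ
    rw [Finset.card_map] at a2
    rw [degree_snc] at a3
    exact ⟨trivial, a2, a3⟩
  | succ i =>
    refine ⟨h1, fun F _ => ?_⟩
    have h3 := layA_succ (kos (sh k (n + 1)) v) i F
    rw [lay_sh, map_zero, Pi.zero_apply] at h3
    rw [eq_neg_of_add_eq_zero_left h3.symm]
    refine neg_mem (zsmul_mem ?_ _)
    intro β hβ
    have h4 := Finsupp.mem_support_iff.1 (Finset.mem_coe.1 hβ)
    exact (lay_ch.1 h2 (insert (Fin.last n) (layUp F)) (snc β i) h4).1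

lemma lay_zero {E : Set (Fin (n + 1) →₀ ℕ)} {p j : ℕ}
    {u : Finset (Fin (n + 1)) → (Fin (n + 1) →₀ ℕ) →₀ k}
    (h : u ∈ (ch (n + 1) (Pd k (n + 1)) (p + 1) j).map (kos (sh k (n + 1))) ⊓
      ch (n + 1) (WE k E) p j) (h0 : ∀ i ≤ j, layA k n i u = 0) : u = 0 := by
  obtain ⟨⟨v, -, hv⟩, h2⟩ := h
  have h1 : ∀ i, layA k n i u = 0 := fun i => by
    by_cases hi : i ≤ j
    · exact h0 i hi
    · funext F
      ext β
      by_contra hβ
      have a3 := (lay_ch.1 h2 (layUp F) (snc β i) hβ).2.2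
      rw [degree_snc] at a3
      omega
  have h3 : ∀ i F, layB k n i u F = 0 := fun i F => by
    have h3 := layA_succ u i F
    rw [h1, map_zero, ← hv, lay_sh, map_zero, hv, Pi.zero_apply, zero_add] at h3
    rw [← lay_sq F.card (layB k n i u F), ← h3, smul_zero]
  funext G
  ext γ
  rw [← snc_ini γ]
  rcases lay_cases G with ⟨F, rfl⟩ | ⟨F, rfl⟩
  · exact congrArg (· (ini γ)) (congrFun (h1 (γ (Fin.last n))) F)
  · exact congrArg (· (ini γ)) (h3 (γ (Fin.last n)) F)

lemma lay_build (j : ℕ) (x : Finset (Fin n) → (Fin n →₀ ℕ) →₀ k)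
    (y : ℕ → Finset (Fin n) → (Fin n →₀ ℕ) →₀ k) :
    ∃ v, layA k n 0 v = x ∧ (∀ i, layA k n (i + 1) v = 0) ∧
      ∀ i, layB k n i v = if i < j then y i else 0 := by
  have h1 : ∀ F : Finset (Fin n), (Finset.univ.filter fun l => l.castSucc ∈ layUp F) = F :=
    fun F => by ext; simp
  have h2 : ∀ F : Finset (Fin n),
      (Finset.univ.filter fun l => l.castSucc ∈ insert (Fin.last n) (layUp F)) = F :=
    fun F => by ext; simp
  refine ⟨fun G => if Fin.last n ∈ G then ∑ m ∈ Finset.range j,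
    (y m (Finset.univ.filter fun l => l.castSucc ∈ G)).mapDomain (snc · m)
    else (x (Finset.univ.filter fun l => l.castSucc ∈ G)).mapDomain (snc · 0), ?_, fun i => ?_,
    fun i => ?_⟩ <;> funext F
  · rw [layA_apply, if_neg (layUp_last F), h1, layCo_em, if_pos rfl]
  · rw [layA_apply, if_neg (layUp_last F), layCo_em, if_neg (by omega), Pi.zero_apply]
  · rw [layB_apply, if_pos (Finset.mem_insert_self _ _), h2, map_sum]
    simp only [layCo_em, Finset.sum_ite_eq', Finset.mem_range]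
    split_ifs <;> rfl

lemma lay_surj {E : Set (Fin (n + 1) →₀ ℕ)} {p j : ℕ}
    (y : ℕ → Finset (Fin n) → (Fin n →₀ ℕ) →₀ k) (hy : ∀ i ≤ j, y i ∈ layH k E p j i) :
    ∃ u ∈ (ch (n + 1) (Pd k (n + 1)) (p + 1) j).map (kos (sh k (n + 1))) ⊓
      ch (n + 1) (WE k E) p j, ∀ i ≤ j, layA k n i u = y i := by
  obtain ⟨⟨x, hx, hx'⟩, h0⟩ := hy 0 (Nat.zero_le _)
  obtain ⟨v, v1, v2, v3⟩ := lay_build j x fun i F => ((-1 : ℤ) ^ F.card) • y (i + 1) F
  have hA : ∀ i, layA k n i (kos (sh k (n + 1)) v) = if i ≤ j then y i else 0 := by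
    intro i
    cases i with
    | zero => rw [layA_zero, v1, hx', if_pos (Nat.zero_le _)]
    | succ i =>
      funext F
      rw [layA_succ, v2, map_zero, Pi.zero_apply, zero_add, v3]
      by_cases hi : i < j
      · rw [if_pos hi, if_pos (by omega), lay_sq]
      · rw [if_neg hi, if_neg (by omega), Pi.zero_apply, smul_zero]
  have hv : v ∈ ch (n + 1) (Pd k (n + 1)) (p + 1) j := by
    rw [SetLike.mem_coe, lay_Pd] at hx
    rw [lay_Pd]
    refine lay_ch.2 fun G γ hγ => ⟨trivial, ?_⟩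
    rw [← snc_ini γ] at hγ ⊢
    generalize ini γ = β at hγ ⊢
    generalize γ (Fin.last n) = i at hγ ⊢
    rw [degree_snc]
    rcases lay_cases G with ⟨F, rfl⟩ | ⟨F, rfl⟩
    · change layA k n i v F β ≠ 0 at hγ
      cases i with
      | zero =>
        rw [v1] at hγ
        rw [Finset.card_map]
        exact (lay_ch.1 hx F β hγ).2
      | succ i =>
        rw [v2] at hγ
        exact absurd rfl hγ
    · change layB k n i v F β ≠ 0 at hγ
      rw [v3] at hγ
      split_ifs at hγ with hi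
      · obtain ⟨-, a2, a3⟩ := lay_ch.1 (hy (i + 1) hi).1 F β fun e => hγ (by simp [e])
        rw [Finset.card_insert_of_notMem (layUp_last F), Finset.card_map]
        omega
      · exact absurd rfl hγ
  refine ⟨kos (sh k (n + 1)) v, ⟨⟨v, hv, rfl⟩, lay_ch.2 fun G γ hγ => ⟨?_, ?_⟩⟩,
    fun i hi => by rw [hA, if_pos hi]⟩
  · rw [← snc_ini γ] at hγ ⊢
    generalize ini γ = β at hγ ⊢
    generalize γ (Fin.last n) = i at hγ ⊢
    rcases lay_cases G with ⟨F, rfl⟩ | ⟨F, rfl⟩
    · change layA k n i (kos (sh k (n + 1)) v) F β ≠ 0 at hγ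
      rw [hA] at hγ
      split_ifs at hγ with hi
      · cases i with
        | zero => exact (lay_ch.1 h0 F β hγ).1
        | succ i => exact (lay_ch.1 (hy (i + 1) hi).1 F β hγ).1
      · exact absurd rfl hγ
    · change layB k n i (kos (sh k (n + 1)) v) F β ≠ 0 at hγ
      rw [layB_kos, v3] at hγ
      split_ifs at hγ with hi
      · have e : kos (sh k n) (fun F => ((-1 : ℤ) ^ F.card) • y (i + 1) F) F =
            ((-1 : ℤ) ^ (F.card + 1)) • kos (sh k n) (y (i + 1)) F := by
          rw [kos_apply, kos_apply, Finset.smul_sum]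
          refine Finset.sum_congr rfl fun l hl => ?_
          rw [Finset.card_insert_of_notMem (Finset.mem_compl.1 hl), map_zsmul, smul_comm]
        rw [e] at hγ
        exact (hy (i + 1) hi).2 F trivial (Finsupp.mem_support_iff.2 fun e => hγ (by simp [e]))
      · rw [map_zero] at hγ
        exact absurd rfl hγ
  · have h1 := kos_ch (sh k (n + 1)) (Pd k (n + 1)) sh_Pd p j ⟨v, hv, rfl⟩
    rw [lay_Pd] at h1
    exact (lay_ch.1 h1 G γ hγ).2

end lay

theorem tE_succ {k : Type*} [DivisionRing k] (E : Set (Fin (n + 1) →₀ ℕ)) (p j : ℕ) :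
    tE k E p j = tE k (lay E 0) p j +
      ∑ i ∈ Finset.range j, finrank k (YY k (lay E (i + 1)) (lay E i) p (j - (i + 1))) := by
  have f1 := ch_fin (n := n + 1) (WE k E) p j
  have f2 : FiniteDimensional k ((ch (n + 1) (Pd k (n + 1)) (p + 1) j).map (kos (sh k (n + 1))) ⊓
      ch (n + 1) (WE k E) p j : Submodule k _) := Submodule.finiteDimensional_of_le inf_le_right
  have f3 : ∀ i, FiniteDimensional k (layH k E p j i) := fun i => by
    cases i with
    | zero =>
      have := ch_fin (n := n) (WE k (lay E 0)) p j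
      exact Submodule.finiteDimensional_of_le inf_le_right
    | succ i =>
      have := ch_fin (n := n) (WE k (lay E (i + 1))) p (j - (i + 1))
      exact Submodule.finiteDimensional_of_le inf_le_left
  have h1 := finrank_map_inj (LinearMap.pi fun i : Fin (j + 1) => layA k n i)
    ((ch (n + 1) (Pd k (n + 1)) (p + 1) j).map (kos (sh k (n + 1))) ⊓ ch (n + 1) (WE k E) p j)
    fun u hu h => lay_zero hu fun i hi => congrFun h ⟨i, by omega⟩
  have h2 : ((ch (n + 1) (Pd k (n + 1)) (p + 1) j).map (kos (sh k (n + 1))) ⊓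
      ch (n + 1) (WE k E) p j).map (LinearMap.pi fun i : Fin (j + 1) => layA k n i) =
      Submodule.pi Set.univ fun i : Fin (j + 1) => layH k E p j i := by
    apply le_antisymm
    · rintro _ ⟨u, hu, rfl⟩ i _
      exact lay_mem hu i
    · intro y hy
      obtain ⟨u, hu, h⟩ := lay_surj (E := E) (p := p) (j := j)
        (fun i => if h : i < j + 1 then y ⟨i, h⟩ else 0) fun i hi => by
          rw [dif_pos (by omega)]
          exact hy ⟨i, by omega⟩ trivial
      refine ⟨u, hu, funext fun i => ?_⟩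
      have := h i (by omega)
      rw [dif_pos i.2] at this
      exact this
  rw [h2, lay_pi, Fin.sum_univ_eq_sum_range (fun i => finrank k (layH k E p j i)),
    Finset.sum_range_succ', add_comm] at h1
  exact h1.symm

end Vale.Agent.P200D
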