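import Vale.Agent.P200D.Mod

/-! Lex segments. -/

namespace Vale.Agent.P200D

open Module P200 P200L

variable {n : ℕ}

open Classical in
theorem rank_card {α β : Type*} [LinearOrder β] (f : α → β) (hf : Function.Injective f)
    (S : Finset α) {q : ℕ} (hq : q ≤ S.card) :
    (S.filter fun x => (S.filter fun y => f x < f y).card < q).card = q := by
  let r : α → ℕ := fun x => (S.filter fun y => f x < f y).card
  have lt : ∀ x ∈ S, ∀ y ∈ S, f x < f y → r y < r x := fun x _ y hy h =>
    Finset.card_lt_card ⟨fun z hz => Finset.mem_filter.2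
      ⟨(Finset.mem_filter.1 hz).1, h.trans (Finset.mem_filter.1 hz).2⟩, fun h' =>
        lt_irrefl _ (Finset.mem_filter.1 (h' (Finset.mem_filter.2 ⟨hy, h⟩))).2⟩
  have inj : Set.InjOn r S := fun x hx y hy e => by
    rcases lt_trichotomy (f x) (f y) with h | h | h
    · exact absurd e (lt x hx y hy h).ne'
    · exact hf h
    · exact absurd e (lt y hy x hx h).ne
  have im : S.image r = Finset.range S.card := by
    refine Finset.eq_of_subset_of_card_le (fun m hm => ?_) ?_
    · obtain ⟨x, hx, rfl⟩ := Finset.mem_image.1 hm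
      exact Finset.mem_range.2 (Finset.card_lt_card ⟨Finset.filter_subset _ _, fun h' =>
        lt_irrefl _ (Finset.mem_filter.1 (h' hx)).2⟩)
    · rw [Finset.card_image_of_injOn inj, Finset.card_range]
  have e : (S.filter fun x => r x < q).image r = Finset.range q := by
    ext m
    simp only [Finset.mem_image, Finset.mem_filter, Finset.mem_range]
    constructor
    · rintro ⟨x, ⟨-, h⟩, rfl⟩
      exact h
    · intro h
      have : m ∈ S.image r := im ▸ Finset.mem_range.2 (h.trans_le hq)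
      obtain ⟨x, hx, rfl⟩ := Finset.mem_image.1 this
      exact ⟨x, ⟨hx, h⟩, rfl⟩
  have := Finset.card_image_of_injOn (s := S.filter fun x => r x < q)
    (inj.mono (Finset.coe_subset.2 (Finset.filter_subset _ _)))
  rw [e, Finset.card_range] at this
  exact this.symm

open Classical in
theorem isLex_top (Q : (Fin n →₀ ℕ) → Prop) (E : Set (Fin n →₀ ℕ)) (hO : ∀ β, Q β → β ∈ E)
    (q : ℕ → ℕ) (hq : ∀ d, q d = cnt E d - cnt {β | Q β} d) (d : ℕ) :
    cnt {β | Q β ∨ ((expo n β.degree).filter fun γ => ¬ Q γ ∧ toLex β < toLex γ).card <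
      q β.degree} d = cnt E d := by
  have h1 : cnt {β | Q β} d ≤ cnt E d := Finset.card_le_card fun β hβ =>
    Finset.mem_filter.2 ⟨(Finset.mem_filter.1 hβ).1, hO β (Finset.mem_filter.1 hβ).2⟩
  have h2 : cnt E d ≤ (expo n d).card := Finset.card_le_card (Finset.filter_subset _ _)
  have h3 : cnt {β | Q β} d + ((expo n d).filter fun β => ¬ Q β).card = (expo n d).card :=
    Finset.card_filter_add_card_filter_not (s := expo n d) (fun β => Q β)
  have h4 := rank_card (fun β : Fin n →₀ ℕ => toLex β) toLex.injective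
    ((expo n d).filter fun β => ¬ Q β) (q := q d) (by rw [hq]; omega)
  have h5 : cnt {β | Q β ∨ ((expo n β.degree).filter fun γ => ¬ Q γ ∧ toLex β < toLex γ).card <
      q β.degree} d = cnt {β | Q β} d + q d := by
    rw [← h4, cnt, cnt, ← Finset.card_union_of_disjoint (Finset.disjoint_left.2 fun β h h' => by
      simp only [Finset.mem_filter, Set.mem_setOf_eq] at h h'
      exact h'.1.2 h.2)]
    refine congrArg Finset.card (Finset.ext fun β => ?_)
    simp only [Finset.mem_filter, Finset.mem_union, Set.mem_setOf_eq, Finset.filter_filter]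
    by_cases hβ : β ∈ expo n d
    · rw [mem_expo.1 hβ]
      by_cases hQ : Q β
      · simp only [hβ, hQ, true_or, and_self]
      · simp only [hβ, hQ, false_or, true_and, and_false, not_false_eq_true]
    · simp [hβ]
  rw [h5, hq]
  omega

theorem exists_lex (a : Fin n → ℕ) (E : Set (Fin n →₀ ℕ)) (hO : ∀ β, Out a β → β ∈ E) :
    ∃ L, IsLex a L ∧ ∀ d, cnt L d = cnt E d := by
  classical
  refine ⟨_, ⟨fun β h => Or.inl h, fun β hβ h γ hd hl => ?_⟩,
    isLex_top (Out a) E hO (fun d => cnt E d - cnt {β | Out a β} d) fun _ => rfl⟩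
  refine Or.inr ?_
  rw [hd]
  refine lt_of_le_of_lt (Finset.card_le_card fun δ hδ => ?_) (hβ.resolve_left h)
  rw [Finset.mem_filter] at hδ ⊢
  exact ⟨hδ.1, hδ.2.1, hl.trans hδ.2.2⟩

theorem lex_nest {a : Fin n → ℕ} {L L' : Set (Fin n →₀ ℕ)} (h : IsLex a L) (h' : IsLex a L')
    {β : Fin n →₀ ℕ} (hβ : β ∈ L) (hc : cnt L β.degree ≤ cnt L' β.degree) : β ∈ L' := by
  classical
  by_contra hn
  have hO : ¬ Out a β := fun e => hn (h'.1 β e)
  refine absurd hc (not_le.2 (Finset.card_lt_card ⟨fun γ hγ => ?_, fun hs => hn ?_⟩))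
  · rw [Finset.mem_filter] at hγ ⊢
    refine ⟨hγ.1, ?_⟩
    by_cases hg : Out a γ
    · exact h.1 γ hg
    rcases lt_trichotomy (toLex β) (toLex γ) with e | e | e
    · exact h.2 β hβ hO γ (mem_expo.1 hγ.1) e
    · exact toLex.injective e ▸ hβ
    · exact absurd (h'.2 γ hγ.2 hg β (mem_expo.1 hγ.1).symm e) hn
  · exact (Finset.mem_filter.1 (hs (Finset.mem_filter.2 ⟨mem_expo.2 rfl, hβ⟩))).2

theorem lex_lay {a : Fin (n + 1) → ℕ} {L : Set (Fin (n + 1) →₀ ℕ)} (h : IsLex a L) {i : ℕ}
    (hi : i < a (Fin.last n)) : IsLex (fun l => a l.castSucc) (lay L i) := by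
  refine ⟨fun β ⟨l, hl⟩ => h.1 _ ⟨l.castSucc, by simpa using hl⟩, fun β hβ hO γ hd hl => ?_⟩
  refine h.2 _ hβ (fun ⟨l, e⟩ => ?_) _ (by rw [degree_snc, degree_snc, hd]) ?_
  · induction l using Fin.lastCases with
    | last => exact absurd (by simpa using e) hi.not_ge
    | cast l => exact hO ⟨l, by simpa using e⟩
  · obtain ⟨l, h1, h2⟩ := Finsupp.Lex.lt_iff.1 hl
    refine Finsupp.Lex.lt_iff.2 ⟨l.castSucc, fun j hj => ?_, by simpa using h2⟩
    induction j using Fin.lastCases with
    | last => exact absurd hj (Fin.castSucc_lt_last l).not_gt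
    | cast j => simpa using h1 j (Fin.castSucc_lt_castSucc_iff.1 hj)

theorem lex_stab {a : Fin (n + 1) → ℕ} {L : Set (Fin (n + 1) →₀ ℕ)} (h : IsLex a L) :
    Stab a L := by
  intro γ l hγ hl
  by_cases hO : Out a (γ + Finsupp.single (Fin.last n) 1)
  · obtain ⟨m, hm⟩ := hO
    induction m using Fin.lastCases with
    | last => exact absurd (by simpa using hm) hl.not_ge
    | cast m =>
      refine h.1 _ ⟨m.castSucc, hm.trans ?_⟩
      simp [Finsupp.single_apply, (Fin.castSucc_lt_last m).ne']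
  refine h.2 _ hγ hO _ (by simp) (Finsupp.Lex.lt_iff.2 ⟨l.castSucc, fun j hj => ?_, ?_⟩)
  · simp [Finsupp.single_apply, hj.ne', (hj.trans (Fin.castSucc_lt_last l)).ne']
  · simp [Finsupp.single_apply, (Fin.castSucc_lt_last l).ne']

end Vale.Agent.P200D
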