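import Vale.Agent.P200D.Fin

namespace Vale.Agent.Results.P200.LexAllFields

open MvPolynomial Vale.Agent.P200L

/-- The lex-plus-powers subspace is an ideal when all degrees from the third one on are equal,
and it has the largest graded Betti numbers when all degrees are equal, over every field. -/
theorem result {K : Type*} [Field K] {n c : ℕ} (hc : c ≤ n) (a : Fin c → ℕ)
    (h2 : ∀ i, 2 ≤ a i) (hmono : Monotone a)
    (htop : ∀ i j : Fin c, 2 ≤ (i : ℕ) → 2 ≤ (j : ℕ) → a i = a j)
    (f : Fin c → MvPolynomial (Fin n) K) (hf : ∀ i, (f i).IsHomogeneous (a i))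
    (hreg : RingTheory.Sequence.IsWeaklyRegular (MvPolynomial (Fin n) K) (List.ofFn f))
    (I : Ideal (MvPolynomial (Fin n) K)) (hI : ∀ i, f i ∈ I) :
    ∃ J : Ideal (MvPolynomial (Fin n) K), J.restrictScalars K = lpp I (pw K hc a) ∧
      ((∀ i i', a i = a i') → ∀ p j : ℕ, betti I p j ≤ betti J p j) :=
  Vale.Agent.P200D.lpp_main hc a h2 hmono htop f hf ((Vale.Agent.P200.isReg_iff f).mpr hreg) I hI

end Vale.Agent.Results.P200.LexAllFields
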