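import Vale.Agent.P200D.Mod

/-! The shadow of a lex set. -/

namespace Vale.Agent.P200D

open Module P200 P200L

variable {n : ℕ}

lemma Shad_lt {γ δ : Fin n →₀ ℕ} (r : Fin n) (h1 : ∀ j, j < r → γ j = δ j) (h2 : γ r < δ r) :
    toLex γ < toLex δ := Finsupp.Lex.lt_iff.2 ⟨r, h1, h2⟩

lemma Shad_eq {γ δ : Fin n →₀ ℕ} (h1 : δ ≤ γ) (h2 : δ.degree = γ.degree) : δ = γ := by
  obtain ⟨c, rfl⟩ := exists_add_of_le h1
  rw [map_add] at h2
  have : c = 0 := (Finsupp.degree_eq_zero_iff c).1 (by omega)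
  rw [this, add_zero]

lemma Shad_key {γ δ : Fin n →₀ ℕ} {i : Fin n}
    (hd : δ.degree = (γ + Finsupp.single i 1).degree)
    (hlt : toLex (γ + Finsupp.single i 1) < toLex δ) :
    ∃ δ' m, δ = δ' + Finsupp.single m 1 ∧ δ'.degree = γ.degree ∧
      (δ' = γ ∨ toLex γ < toLex δ') := by
  obtain ⟨r, h1, h2⟩ := Finsupp.Lex.lt_iff.1 hlt
  simp only [ofLex_toLex, Finsupp.add_apply, Finsupp.single_apply] at h1 h2
  have hsub : ∀ m, δ m ≠ 0 → ∃ δ' : Fin n →₀ ℕ, δ = δ' + Finsupp.single m 1 ∧
      δ'.degree = γ.degree ∧ ∀ j, δ j = δ' j + if m = j then 1 else 0 := by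
    intro m hm
    have hle : Finsupp.single m 1 ≤ δ := Finsupp.single_le_iff.2 (by omega)
    obtain ⟨c, hc⟩ := exists_add_of_le hle
    rw [add_comm] at hc
    refine ⟨c, hc, ?_, fun j => by rw [hc]; simp [Finsupp.single_apply]⟩
    rw [hc, map_add, map_add, Finsupp.degree_single, Finsupp.degree_single] at hd
    omega
  by_cases hm : ∃ m, r < m ∧ δ m ≠ 0
  · obtain ⟨m, hrm, hm⟩ := hm
    obtain ⟨δ', e1, e2, e3⟩ := hsub m hm
    refine ⟨δ', m, e1, e2, Or.inr ?_⟩
    rcases lt_or_ge i r with c | c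
    · refine Shad_lt i (fun j hj => ?_) ?_
      · have a1 := h1 j (hj.trans c)
        have a2 := e3 j
        rw [if_neg (by omega)] at a1 a2
        omega
      · have a1 := h1 i c
        have a2 := e3 i
        rw [if_pos rfl] at a1
        rw [if_neg (by omega)] at a2
        omega
    · refine Shad_lt r (fun j hj => ?_) ?_
      · have a1 := h1 j hj
        have a2 := e3 j
        rw [if_neg (by omega)] at a1 a2
        omega
      · have a2 := e3 r
        rw [if_neg (by omega)] at a2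
        omega
  · push Not at hm
    obtain ⟨δ', e1, e2, e3⟩ := hsub r (by omega)
    refine ⟨δ', r, e1, e2, ?_⟩
    have er := e3 r
    rw [if_pos rfl] at er
    rcases lt_or_ge i r with c | c
    · refine Or.inr (Shad_lt i (fun j hj => ?_) ?_)
      · have a1 := h1 j (hj.trans c)
        have a2 := e3 j
        rw [if_neg (by omega)] at a1 a2
        omega
      · have a1 := h1 i c
        have a2 := e3 i
        rw [if_pos rfl] at a1
        rw [if_neg (by omega)] at a2
        omega
    · have hlow : ∀ j, j < r → γ j = δ' j := fun j hj => by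
        have a1 := h1 j hj
        have a2 := e3 j
        rw [if_neg (by omega)] at a1 a2
        omega
      by_cases c2 : γ r < δ' r
      · exact Or.inr (Shad_lt r hlow c2)
      · refine Or.inl (Shad_eq (fun j => ?_) e2)
        rcases lt_trichotomy j r with c3 | c3 | c3
        · exact (hlow j c3).ge
        · subst c3
          omega
        · have a1 := hm j c3
          have a2 := e3 j
          omega

theorem lex_shadow {a : Fin n → ℕ} {L : Set (Fin n →₀ ℕ)} (h : IsLex a L) :
    IsLex a {β | Out a β ∨ ∃ γ ∈ L, ∃ i, β = γ + Finsupp.single i 1} := by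
  refine ⟨fun β hβ => Or.inl hβ, fun β hβ hno δ hd hlt => ?_⟩
  rcases hβ with hβ | ⟨γ, hγ, i, rfl⟩
  · exact absurd hβ hno
  have hγo : ¬ Out a γ := fun ⟨j, hj⟩ => hno ⟨j, by simp only [Finsupp.add_apply]; omega⟩
  obtain ⟨δ', m, e1, e2, e3⟩ := Shad_key hd hlt
  refine Or.inr ⟨δ', ?_, m, e1⟩
  rcases e3 with e3 | e3
  · rwa [e3]
  · exact h.2 γ hγ hγo δ' e2 e3

end Vale.Agent.P200D
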