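import Vale.Agent.P200D.Cnt

/-! Dimension counts. -/

namespace Vale.Agent.P200D

open Module P200 P200L

variable {n : ℕ} {k : Type*} [DivisionRing k]

theorem Yy_le (E : Set (Fin n →₀ ℕ)) (d : ℕ) : WE k E d ≤ Pd k n d :=
  Finsupp.supported_mono Set.inter_subset_right

instance Yy_fin (E : Set (Fin n →₀ ℕ)) (d : ℕ) : FiniteDimensional k (WE k E d) :=
  Submodule.finiteDimensional_of_le (Yy_le E d)

theorem finrank_WE (E : Set (Fin n →₀ ℕ)) (d : ℕ) : finrank k (WE k E d) = cnt E d := by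
  classical
  have e : E ∩ (expo n d : Set (Fin n →₀ ℕ)) = ((expo n d).filter (· ∈ E) : Finset _) := by
    ext β
    simp [and_comm]
  rw [WE, e, (Finsupp.supportedEquivFinsupp _).finrank_eq, Module.finrank_finsupp_self, cnt]
  simp only [Finset.coe_sort_coe, Fintype.card_coe]

theorem cc_eq (E : Set (Fin n →₀ ℕ)) (p m : ℕ) :
    cc k E p m = if p ≤ m then n.choose p * cnt E (m - p) else 0 := by
  rw [cc, finrank_ch]
  split_ifs with h
  · simp only [h, and_true, finrank_WE]
    rw [← Finset.sum_filter, Finset.sum_const, smul_eq_mul, Finset.univ_filter_card_eq,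
      Finset.card_powersetCard, Finset.card_univ, Fintype.card_fin]
  · simp [h]

theorem YY_le (E1 E0 : Set (Fin n →₀ ℕ)) (p m : ℕ) :
    finrank k (YY k E1 E0 p m) ≤ cc k E1 p m := by
  have := ch_fin (n := n) (WE k E1) p m
  exact Submodule.finrank_mono inf_le_left

theorem YY_eq (E1 E0 : Set (Fin n →₀ ℕ)) (h : ∀ β ∈ E1, ∀ i, β + Finsupp.single i 1 ∈ E0)
    (p m : ℕ) : finrank k (YY k E1 E0 p m) = cc k E1 p m := by
  classical
  rw [YY, inf_eq_left.mpr, cc]
  intro u hu F _
  rw [mem_ch'] at hu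
  rw [kos_apply]
  refine Submodule.sum_mem _ fun i _ => zsmul_mem ?_ _
  by_cases hc : (insert i F).card = p ∧ p ≤ m
  · intro γ hγ
    obtain ⟨δ, hδ, rfl⟩ := Finset.mem_image.mp (Finsupp.mapDomain_support hγ)
    exact h δ (hu.1 _ hc.1 hc.2 hδ).1 i
  · rw [hu.2 _ hc, map_zero]
    exact zero_mem _

theorem Yy_dim (E0 : Set (Fin n →₀ ℕ)) (p m : ℕ) : finrank k (YY k Set.univ E0 p m) =
    finrank k (ch n (Pd k n) p m ⊓ LinearMap.ker (kos (sh k n)) : Submodule k _) +
      finrank k ((ch n (Pd k n) p m).map (kos (sh k n)) ⊓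
        (Submodule.pi Set.univ fun _ => Finsupp.supported k k E0) : Submodule k _) := by
  have e : WE k (Set.univ : Set (Fin n →₀ ℕ)) = Pd k n := by
    funext d
    rw [WE, Set.univ_inter]
  have := ch_fin (n := n) (Pd k n) p m
  have : FiniteDimensional k (YY k Set.univ E0 p m) := by
    rw [YY, e]
    exact Submodule.finiteDimensional_of_le inf_le_left
  rw [← rank_null (kos (sh k n)) (YY k Set.univ E0 p m), YY, e,
    Submodule.map_inf_eq_map_inf_comap.symm, inf_assoc, inf_eq_right.mpr (LinearMap.ker_le_comap _)]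

theorem YY_univ (E0 E0' : Set (Fin n →₀ ℕ)) (m : ℕ) (h : ∀ p, tE k E0 p m ≤ tE k E0' p m)
    (p : ℕ) : finrank k (YY k Set.univ E0 p m) ≤ finrank k (YY k Set.univ E0' p m) := by
  rw [Yy_dim, Yy_dim]
  refine Nat.add_le_add_left ?_ _
  cases p with
  | zero => rw [kos_zero, bot_inf_eq, bot_inf_eq]
  | succ p =>
    have e : ∀ E : Set (Fin n →₀ ℕ), (ch n (Pd k n) (p + 1) m).map (kos (sh k n)) ⊓
        (Submodule.pi Set.univ fun _ => Finsupp.supported k k E) =
        (ch n (Pd k n) (p + 1) m).map (kos (sh k n)) ⊓ ch n (WE k E) p m := fun E => by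
      refine le_antisymm (le_inf inf_le_left fun u hu => ?_) (inf_le_inf_left _ fun u hu F _ => ?_)
      · have h1 := kos_ch (sh k n) (Pd k n) sh_Pd p m hu.1
        rw [mem_ch'] at h1 ⊢
        exact ⟨fun F a b β hβ => ⟨hu.2 F trivial hβ, h1.1 F a b hβ⟩, h1.2⟩
      · rw [mem_ch'] at hu
        by_cases hc : F.card = p ∧ p ≤ m
        · exact fun β hβ => (hu.1 F hc.1 hc.2 hβ).1
        · rw [hu.2 F hc]
          exact zero_mem _
    rw [e, e]
    exact h p

theorem tE_mono {E E' : Set (Fin n →₀ ℕ)} {p j : ℕ}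
    (h : ∀ β ∈ E, β.degree = j - p → β ∈ E') : tE k E p j ≤ tE k E' p j := by
  have := ch_fin (n := n) (WE k E') p j
  have : FiniteDimensional k ((ch n (Pd k n) (p + 1) j).map (kos (sh k n)) ⊓
      ch n (WE k E') p j : Submodule k _) := Submodule.finiteDimensional_of_le inf_le_right
  refine Submodule.finrank_mono (inf_le_inf_left _ fun u hu => ?_)
  rw [mem_ch'] at hu ⊢
  refine ⟨fun F a b β hβ => ?_, hu.2⟩
  have h1 := hu.1 F a b hβ
  exact ⟨h β h1.1 (mem_expo.mp h1.2), h1.2⟩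

theorem tE_diff {E E' : Set (Fin n →₀ ℕ)} (h : E ⊆ E') (p j : ℕ) :
    tE k E' p j + cc k E p j ≤ tE k E p j + cc k E' p j := by
  have := ch_fin (n := n) (WE k E') p j
  have := ch_fin (n := n) (WE k E) p j
  have : FiniteDimensional k ((ch n (Pd k n) (p + 1) j).map (kos (sh k n)) ⊓
      ch n (WE k E') p j : Submodule k _) := Submodule.finiteDimensional_of_le inf_le_right
  have hC : ch n (WE k E) p j ≤ ch n (WE k E') p j :=
    ch_mono (fun d => Finsupp.supported_mono (Set.inter_subset_inter_left _ h)) p j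
  have e1 := Submodule.finrank_sup_add_finrank_inf_eq
    ((ch n (Pd k n) (p + 1) j).map (kos (sh k n)) ⊓ ch n (WE k E') p j) (ch n (WE k E) p j)
  rw [inf_assoc, inf_eq_right.mpr hC] at e1
  have e2 := Submodule.finrank_mono (sup_le (inf_le_right :
    (ch n (Pd k n) (p + 1) j).map (kos (sh k n)) ⊓ ch n (WE k E') p j ≤ _) hC)
  unfold tE tt cc
  omega

theorem Yy_sum (E : Set (Fin (n + 1) →₀ ℕ)) (p j : ℕ) :
    ∑ i ∈ Finset.range (j + 1), cc k (lay E i) p (j - i) =
      if p ≤ j then n.choose p * cnt E (j - p) else 0 := by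
  simp only [cc_eq]
  split_ifs with h
  · rw [cnt_succ, Finset.mul_sum, ← Finset.sum_filter]
    refine Finset.sum_congr ?_ fun i _ => by rw [Nat.sub_right_comm]
    ext i
    simp only [Finset.mem_filter, Finset.mem_range]
    omega
  · exact Finset.sum_eq_zero fun i _ => if_neg (by omega)

theorem cc_succ (E E' : Set (Fin (n + 1) →₀ ℕ)) (h : ∀ d, cnt E d = cnt E' d) (p j : ℕ) :
    ∑ i ∈ Finset.range (j + 1), cc k (lay E i) p (j - i) =
      ∑ i ∈ Finset.range (j + 1), cc k (lay E' i) p (j - i) := by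
  rw [Yy_sum, Yy_sum, h]

end Vale.Agent.P200D
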