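import Vale.Agent.P200D.Shift
import Vale.Agent.P200D.Lay
import Vale.Agent.P200D.Yy
import Vale.Agent.P200D.Lex
import Vale.Agent.P200D.Shad
import Vale.Agent.P200D.Green

/-! The comparison of a monomial set with its lex-plus-powers set. -/

namespace Vale.Agent.P200D

open Module P200 P200L

variable {n : ℕ}

lemma cnt_mono {E E' : Set (Fin n →₀ ℕ)} {d : ℕ} (h : ∀ β ∈ E, β.degree = d → β ∈ E') :
    cnt E d ≤ cnt E' d := by
  classical
  unfold cnt
  refine Finset.card_le_card fun β hβ => ?_
  rw [Finset.mem_filter] at hβ ⊢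
  exact ⟨hβ.1, h β hβ.2 (mem_expo.mp hβ.1)⟩

lemma cnt_congr {E E' : Set (Fin n →₀ ℕ)} {d : ℕ} (h : ∀ β, β.degree = d → (β ∈ E ↔ β ∈ E')) :
    cnt E d = cnt E' d :=
  le_antisymm (cnt_mono fun β hβ hd => (h β hd).mp hβ) (cnt_mono fun β hβ hd => (h β hd).mpr hβ)

lemma isLex_glue {a : Fin n → ℕ} (F : ℕ → Set (Fin n →₀ ℕ)) (h : ∀ d, IsLex a (F d)) :
    IsLex a {β | β ∈ F β.degree} :=
  ⟨fun β hβ => (h _).1 β hβ, fun β hβ hO γ hd hlt => by
    show γ ∈ F γ.degree
    rw [hd]
    exact (h _).2 β hβ hO γ hd hlt⟩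

lemma cnt_glue (F : ℕ → Set (Fin n →₀ ℕ)) (d : ℕ) : cnt {β | β ∈ F β.degree} d = cnt (F d) d :=
  cnt_congr fun β hd => by subst hd; rfl

lemma isLex_univ (a : Fin n → ℕ) : IsLex a Set.univ := ⟨fun _ _ => trivial, fun _ _ _ _ _ _ => trivial⟩

lemma degree_add_single (β : Fin n →₀ ℕ) (i : Fin n) :
    (β + Finsupp.single i 1).degree = β.degree + 1 := by
  rw [map_add, Finsupp.degree_single]

lemma lay_out {a : Fin (n + 1) → ℕ} {E : Set (Fin (n + 1) →₀ ℕ)} (hO : ∀ β, Out a β → β ∈ E)
    (i : ℕ) (β : Fin n →₀ ℕ) (h : Out (fun l => a l.castSucc) β) : β ∈ lay E i := by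
  obtain ⟨l, hl⟩ := h
  exact hO _ ⟨l.castSucc, by simpa using hl⟩

lemma lay_univ {a : Fin (n + 1) → ℕ} {E : Set (Fin (n + 1) →₀ ℕ)} (hO : ∀ β, Out a β → β ∈ E)
    {i : ℕ} (hi : a (Fin.last n) ≤ i) : lay E i = Set.univ :=
  Set.eq_univ_of_forall fun β => hO _ ⟨Fin.last n, by simpa using hi⟩

lemma lay_up {E : Set (Fin (n + 1) →₀ ℕ)} (h : Up E) (i : ℕ) : Up (lay E i) := fun β hβ l => by
  have := h _ hβ l.castSucc
  rwa [snc_add_cast] at this

lemma lay_sub {E : Set (Fin (n + 1) →₀ ℕ)} (h : Up E) (i : ℕ) : lay E i ⊆ lay E (i + 1) :=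
  fun β hβ => by
    have := h _ hβ (Fin.last n)
    rwa [snc_add_last] at this

lemma lay_stab {a : Fin (n + 1) → ℕ} {E : Set (Fin (n + 1) →₀ ℕ)} (h : Stab a E) {i : ℕ}
    (hi : i + 1 < a (Fin.last n)) : ∀ β ∈ lay E (i + 1), ∀ l, β + Finsupp.single l 1 ∈ lay E i :=
  fun β hβ l => by
    have := h (snc β i) l (by rw [snc_add_last]; exact hβ) (by simpa using hi)
    rwa [snc_add_cast] at this

/-- The statement proved by induction on the number of variables. -/
def MMs (k : Type*) [DivisionRing k] (n : ℕ) : Prop :=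
  ∀ a : Fin n → ℕ, Monotone a → (∀ i, 0 < a i) → (∀ i, Good k (a i)) →
    ∀ E L : Set (Fin n →₀ ℕ), Up E → (∀ β, Out a β → β ∈ E) → IsLex a L →
      (∀ d, cnt L d = cnt E d) → Up L ∧ ∀ p j, tE k E p j ≤ tE k L p j

theorem MM_zero (k : Type*) [DivisionRing k] : MMs k 0 := by
  classical
  intro a _ _ _ E L _ _ _ hc
  refine ⟨fun _ _ i => i.elim0, fun p j => tE_mono fun β hβ _ => ?_⟩
  by_contra h
  have h1 : cnt L β.degree = 0 := by
    unfold cnt
    rw [Finset.card_eq_zero, Finset.filter_eq_empty_iff]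
    intro γ _ hγ
    exact h (Subsingleton.elim γ β ▸ hγ)
  rw [hc] at h1
  unfold cnt at h1
  rw [Finset.card_eq_zero, Finset.filter_eq_empty_iff] at h1
  exact h1 (mem_expo.mpr rfl) hβ

section step
variable {k : Type*} [DivisionRing k] {a : Fin (n + 1) → ℕ} {E L : Set (Fin (n + 1) →₀ ℕ)}

/-- compression of the layers -/
theorem compress (ih : MMs k n) (ha : Monotone a) (h0 : ∀ i, 0 < a i) (hg : ∀ i, Good k (a i))
    (hE : Up E) (hO : ∀ β, Out a β → β ∈ E) (hS : Stab a E) :
    ∃ U : Set (Fin (n + 1) →₀ ℕ), (∀ β, Out a β → β ∈ U) ∧ Stab a U ∧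
      (∀ i, IsLex (fun l => a l.castSucc) (lay U i)) ∧ (∀ i d, cnt (lay U i) d = cnt (lay E i) d) ∧
      (∀ i, Up (lay U i)) ∧ ∀ i p j, tE k (lay E i) p j ≤ tE k (lay U i) p j := by
  have ih' := ih (fun l => a l.castSucc) (fun l l' h => ha (Fin.castSucc_le_castSucc_iff.mpr h))
    (fun l => h0 _) (fun l => hg _)
  choose V hV hVc using fun i => exists_lex (fun l => a l.castSucc) (lay E i) (lay_out hO i)
  have e : ∀ i, lay {β | ini β ∈ V (β (Fin.last n))} i = V i := fun i => by
    ext β; simp [lay]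
  refine ⟨{β | ini β ∈ V (β (Fin.last n))}, ?_, ?_, ?_, ?_, ?_, ?_⟩
  · rintro β ⟨i, hi⟩
    induction i using Fin.lastCases with
    | last =>
      refine lex_nest (isLex_univ _) (hV _) trivial ?_
      rw [hVc, lay_univ hO hi]
    | cast l => exact (hV _).1 _ ⟨l, hi⟩
  · intro γ l h1 h2
    obtain ⟨i, hi⟩ : ∃ i, i = γ (Fin.last n) := ⟨_, rfl⟩
    obtain ⟨β, hβ⟩ : ∃ β, β = ini γ := ⟨_, rfl⟩
    have hγ : γ = snc β i := by rw [hi, hβ, snc_ini]
    rw [← hi] at h2
    rw [hγ, snc_add_last] at h1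
    rw [hγ, snc_add_cast]
    have h1' : β ∈ V (i + 1) := by simpa using h1
    show ini _ ∈ V _
    rw [ini_snc, snc_last]
    have key := (ih' {δ | δ ∈ (fun d => if d ≤ β.degree then lay E (i + 1) else lay E i) δ.degree}
      {δ | δ ∈ (fun d => if d ≤ β.degree then V (i + 1) else V i) δ.degree} ?_ ?_
      (isLex_glue (fun d => if d ≤ β.degree then V (i + 1) else V i)
        fun d => by split_ifs <;> exact hV _) ?_).1 β (by simp [h1']) l
    · simpa [degree_add_single] using key
    · intro δ hδ m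
      simp only [Set.mem_setOf_eq, degree_add_single] at hδ ⊢
      by_cases c1 : δ.degree ≤ β.degree
      · rw [if_pos c1] at hδ
        split_ifs
        · exact lay_up hE _ _ hδ m
        · exact lay_stab hS h2 _ hδ m
      · rw [if_neg c1] at hδ
        rw [if_neg (by omega)]
        exact lay_up hE _ _ hδ m
    · intro δ hδ
      simp only [Set.mem_setOf_eq]
      split_ifs <;> exact lay_out hO _ _ hδ
    · intro d
      rw [cnt_glue (fun d => if d ≤ β.degree then V (i + 1) else V i),
        cnt_glue (fun d => if d ≤ β.degree then lay E (i + 1) else lay E i)]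
      split_ifs <;> exact hVc _ _
  · intro i; rw [e]; exact hV i
  · intro i; rw [e]; exact hVc i
  · intro i; rw [e]; exact (ih' _ _ (lay_up hE i) (lay_out hO i) (hV i) (hVc i)).1
  · intro i; rw [e]; exact (ih' _ _ (lay_up hE i) (lay_out hO i) (hV i) (hVc i)).2

lemma cnl_one (E : Set (Fin (n + 1) →₀ ℕ)) (d : ℕ) : cnl E d (· < 1) = cnt (lay E 0) d := by
  rw [cnl_eq, Finset.sum_range_succ']
  simp

lemma cnt_split (hO : ∀ β, Out a β → β ∈ E) {A : ℕ} (hA : a (Fin.last n) = A + 1) (d : ℕ) :
    cnt E (d + A) = cnl E (d + A) (· < A) + cnt (lay E A) d +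
      ∑ i ∈ Finset.range (d + A + 1), if A < i then cnt (n := n) Set.univ (d + A - i) else 0 := by
  have e : cnt (lay E A) d = ∑ i ∈ Finset.range (d + A + 1),
      if i = A then cnt (lay E i) (d + A - i) else 0 := by
    rw [Finset.sum_ite_eq', if_pos (Finset.mem_range.mpr (by omega)), Nat.add_sub_cancel]
  rw [cnt_succ, cnl_eq, e, ← Finset.sum_add_distrib, ← Finset.sum_add_distrib]
  refine Finset.sum_congr rfl fun i _ => ?_
  rcases lt_trichotomy i A with h | h | h
  · rw [if_pos h, if_neg h.ne, if_neg (by omega)]; simp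
  · rw [if_neg (by omega), if_pos h, if_neg (by omega)]; simp
  · rw [if_neg (by omega), if_neg h.ne', if_pos h, lay_univ hO (by omega)]; simp

theorem MM_stab (ih : MMs k n) (ha : Monotone a) (h0 : ∀ i, 0 < a i) (hg : ∀ i, Good k (a i))
    (hE : Up E) (hO : ∀ β, Out a β → β ∈ E) (hS : Stab a E) (hL : IsLex a L)
    (hc : ∀ d, cnt L d = cnt E d) : Up L ∧ ∀ p j, tE k E p j ≤ tE k L p j := by
  obtain ⟨U, u1, u2, u3, u4, u5, u6⟩ := compress ih ha h0 hg hE hO hS
  obtain ⟨A, hA⟩ : ∃ A, a (Fin.last n) = A + 1 := ⟨a (Fin.last n) - 1, by have := h0 (Fin.last n); omega⟩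
  have hcU : ∀ d, cnt L d = cnt U d := fun d => by
    rw [hc, cnt_succ, cnt_succ]
    exact Finset.sum_congr rfl fun i _ => (u4 _ _).symm
  have gr := fun d => green hL u1 u2 (fun i _ => u3 i) d (hcU d)
  have sL := lex_stab hL
  have g0 : lay L 0 ⊆ lay U 0 := fun β hβ =>
    lex_nest (lex_lay hL (h0 _)) (u3 0) hβ (by
      have := gr β.degree 1
      rwa [cnl_one, cnl_one] at this)
  have gA : lay U A ⊆ lay L A := fun β hβ =>
    lex_nest (u3 A) (lex_lay hL (by omega)) hβ (by
      have h1 := gr (β.degree + A) A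
      have h2 := cnt_split hL.1 hA β.degree
      have h3 := cnt_split u1 hA β.degree
      have h4 := hcU (β.degree + A)
      omega)
  constructor
  · intro β hβ i
    refine lex_nest (lex_shadow hL) hL (Or.inr ⟨β, hβ, i, rfl⟩) ?_
    rw [degree_add_single, hc, cnt_succ, cnt_succ, Finset.sum_range_succ' _ (β.degree + 1),
      Finset.sum_range_succ' _ (β.degree + 1)]
    obtain ⟨d, hd⟩ : ∃ d, d = β.degree := ⟨_, rfl⟩
    rw [← hd]
    have hdec : ∀ (δ : Fin n →₀ ℕ) (m : ℕ) (γ : Fin (n + 1) →₀ ℕ) (i : Fin (n + 1)),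
        snc δ m = γ + Finsupp.single i 1 →
        (∃ l, δ = ini γ + Finsupp.single l 1 ∧ γ = snc (ini γ) m) ∨
          (∃ m', m = m' + 1 ∧ γ = snc δ m') := by
      intro δ m γ i h
      rw [← snc_ini γ] at h
      induction i using Fin.lastCases with
      | last =>
        rw [snc_add_last] at h
        have h1 := congrArg ini h
        have h2 := congrArg (fun x => x (Fin.last n)) h
        simp only [ini_snc, snc_last] at h1 h2
        exact Or.inr ⟨_, h2, by rw [h1, snc_ini]⟩
      | cast l =>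
        rw [snc_add_cast] at h
        have h1 := congrArg ini h
        have h2 := congrArg (fun x => x (Fin.last n)) h
        simp only [ini_snc, snc_last] at h1 h2
        exact Or.inl ⟨l, h1, by rw [h2, snc_ini]⟩
    refine Nat.add_le_add ?_ ?_
    · have h1 := gr d A
      rw [cnl_eq, cnl_eq] at h1
      calc _ ≤ ∑ i ∈ Finset.range (d + 1), ((if i < A then cnt (lay L i) (d - i) else 0) +
            if i < A then 0 else cnt (n := n) Set.univ (d - i)) := by
            refine Finset.sum_le_sum fun m _ => ?_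
            rw [Nat.add_sub_add_right]
            split_ifs with hm
            · refine cnt_mono fun δ hδ _ => ?_
              rcases hδ with ⟨i, hi⟩ | ⟨γ, hγ, i, hi⟩
              · induction i using Fin.lastCases with
                | last => rw [snc_last] at hi; omega
                | cast l => exact lay_out hL.1 _ _ ⟨l, by simpa using hi⟩
              · rcases hdec _ _ _ _ hi with ⟨l, e1, e2⟩ | ⟨m', e1, e2⟩
                · rw [e1]
                  exact lay_stab sL (by omega) _ (by rw [e2] at hγ; exact hγ) l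
                · obtain rfl : m = m' := by omega
                  rw [e2] at hγ
                  exact hγ
            · rw [zero_add]
              exact cnt_mono fun _ _ _ => trivial
        _ ≤ ∑ i ∈ Finset.range (d + 1), ((if i < A then cnt (lay U i) (d - i) else 0) +
            if i < A then 0 else cnt (n := n) Set.univ (d - i)) := by
            rw [Finset.sum_add_distrib, Finset.sum_add_distrib]
            exact Nat.add_le_add_right h1 _
        _ ≤ _ := by
            refine Finset.sum_le_sum fun m _ => ?_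
            rw [Nat.add_sub_add_right]
            split_ifs with hm
            · rw [u4, add_zero]
              exact cnt_mono fun δ hδ _ => lay_sub hE m hδ
            · rw [zero_add, lay_univ hO (by omega)]
    · rw [← u4]
      refine cnt_mono fun δ hδ _ => ?_
      rcases hδ with ⟨i, hi⟩ | ⟨γ, hγ, i, hi⟩
      · induction i using Fin.lastCases with
        | last => rw [snc_last] at hi; omega
        | cast l => exact (u3 0).1 _ ⟨l, by simpa using hi⟩
      · rcases hdec _ _ _ _ hi with ⟨l, e1, e2⟩ | ⟨m', e1, _⟩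
        · rw [e1]
          exact u5 0 _ (g0 (by rw [e2] at hγ; exact hγ)) l
        · omega
  · intro p j
    have hs := cc_succ (k := k) L E hc p j
    rw [Finset.sum_range_succ', Finset.sum_range_succ'] at hs
    have c0 : tE k (lay E 0) p j + cc k (lay L 0) p j ≤ tE k (lay L 0) p j + cc k (lay E 0) p j := by
      have h1 := tE_diff (k := k) g0 p j
      have h2 := u6 0 p j
      have h3 : cc k (lay U 0) p j = cc k (lay E 0) p j := by rw [cc_eq, cc_eq, u4]
      omega
    have ci : ∀ i, finrank k (YY k (lay E (i + 1)) (lay E i) p (j - (i + 1))) +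
        cc k (lay L (i + 1)) p (j - (i + 1)) ≤
        finrank k (YY k (lay L (i + 1)) (lay L i) p (j - (i + 1))) +
          cc k (lay E (i + 1)) p (j - (i + 1)) := by
      intro i
      rcases lt_trichotomy i A with h | h | h
      · rw [YY_eq _ _ (lay_stab sL (by omega)), add_comm]
        exact Nat.add_le_add_left (YY_le _ _ _ _) _
      · subst h
        rw [lay_univ hO hA.le, lay_univ hL.1 hA.le]
        exact Nat.add_le_add_right (YY_univ _ _ _
          (fun q => (u6 _ _ _).trans (tE_mono fun β hβ _ => gA hβ)) p) _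
      · rw [lay_univ hO (i := i + 1) (by omega), lay_univ hL.1 (i := i + 1) (by omega),
          lay_univ hO (i := i) (by omega), lay_univ hL.1 (i := i) (by omega)]
    have cs := Finset.sum_le_sum fun i (_ : i ∈ Finset.range j) => ci i
    rw [Finset.sum_add_distrib, Finset.sum_add_distrib] at cs
    rw [tE_succ, tE_succ]
    simp only [Nat.sub_zero] at hs
    omega

end step

theorem MM (k : Type*) [DivisionRing k] (n : ℕ) : MMs k n := by
  induction n with
  | zero => exact MM_zero k
  | succ n ih =>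
    intro a ha h0 hg E L hE hO hL hc
    obtain ⟨E1, e1, e2, e3, e4, e5⟩ := stab a ha (hg _) E hE hO
    obtain ⟨h1, h2⟩ := MM_stab ih ha h0 hg e1 e2 e5 hL fun d => (hc d).trans (e3 d).symm
    exact ⟨h1, fun p j => (e4 p j).trans (h2 p j)⟩

end Vale.Agent.P200D
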