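import Vale.Agent.P200L.Fr
import Mathlib.Data.Finsupp.Lex

/-! The monomial model: sets of exponents. -/

namespace Vale.Agent.P200D

open Module P200 P200L

variable {n : ℕ}

/-- closed under multiplication by variables -/
def Up (E : Set (Fin n →₀ ℕ)) : Prop := ∀ β ∈ E, ∀ i, β + Finsupp.single i 1 ∈ E

/-- divisible by one of the pure powers -/
def Out (a : Fin n → ℕ) (β : Fin n →₀ ℕ) : Prop := ∃ i, a i ≤ β i

open Classical in
/-- number of members of degree `d` -/
noncomputable def cnt (E : Set (Fin n →₀ ℕ)) (d : ℕ) : ℕ := ((expo n d).filter (· ∈ E)).card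

/-- span of the members of degree `d` -/
noncomputable def WE (k : Type*) [DivisionRing k] (E : Set (Fin n →₀ ℕ)) (d : ℕ) :
    Submodule k ((Fin n →₀ ℕ) →₀ k) :=
  Finsupp.supported k k (E ∩ (expo n d : Set (Fin n →₀ ℕ)))

/-- boundaries with coefficients in `E` -/
noncomputable def tE (k : Type*) [DivisionRing k] (E : Set (Fin n →₀ ℕ)) (p j : ℕ) : ℕ :=
  tt (sh k n) (Pd k n) (WE k E) p j

/-- chains with coefficients in `E` -/
noncomputable def cc (k : Type*) [DivisionRing k] (E : Set (Fin n →₀ ℕ)) (p j : ℕ) : ℕ :=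
  finrank k (ch n (WE k E) p j)

/-- chains with coefficients in `E1` whose boundary has coefficients in `E0` -/
noncomputable def YY (k : Type*) [DivisionRing k] (E1 E0 : Set (Fin n →₀ ℕ)) (p m : ℕ) :
    Submodule k (Finset (Fin n) → (Fin n →₀ ℕ) →₀ k) :=
  ch n (WE k E1) p m ⊓
    (Submodule.pi Set.univ fun _ => Finsupp.supported k k E0).comap (kos (sh k n))

/-- lex-plus-powers sets -/
def IsLex (a : Fin n → ℕ) (L : Set (Fin n →₀ ℕ)) : Prop :=
  (∀ β, Out a β → β ∈ L) ∧ ∀ β ∈ L, ¬ Out a β → ∀ γ : Fin n →₀ ℕ, γ.degree = β.degree →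
    toLex β < toLex γ → γ ∈ L

/-- a twisted Pascal triangle that vanishes inside row `a` -/
def Good (k : Type*) [DivisionRing k] (a : ℕ) : Prop :=
  ∃ (t : ℕ → k) (Q : ℕ → ℕ → k), (∀ s, Q s 0 = 1) ∧ (∀ r, Q 0 (r + 1) = Q 0 r * t 0) ∧
    (∀ s r, Q (s + 1) (r + 1) = Q s (r + 1) + Q (s + 1) r * t (s + 1)) ∧
    (∀ s r, 0 < s → 0 < r → s + r = a → Q s r = 0) ∧ ∀ s, s + 1 < a → Q s 1 ≠ 0

/-- append a last exponent -/
noncomputable def snc (β : Fin n →₀ ℕ) (i : ℕ) : Fin (n + 1) →₀ ℕ :=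
  Finsupp.equivFunOnFinite.symm (Fin.snoc (α := fun _ => ℕ) β i)

/-- forget the last exponent -/
noncomputable def ini (β : Fin (n + 1) →₀ ℕ) : Fin n →₀ ℕ :=
  Finsupp.equivFunOnFinite.symm fun i => β i.castSucc

@[simp] lemma snc_last (β : Fin n →₀ ℕ) (i : ℕ) : snc β i (Fin.last n) = i := by simp [snc]
@[simp] lemma snc_cast (β : Fin n →₀ ℕ) (i : ℕ) (l : Fin n) : snc β i l.castSucc = β l := by
  simp [snc]
@[simp] lemma ini_apply (β : Fin (n + 1) →₀ ℕ) (l : Fin n) : ini β l = β l.castSucc := rfl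
@[simp] lemma ini_snc (β : Fin n →₀ ℕ) (i : ℕ) : ini (snc β i) = β := by ext l; simp
lemma snc_ini (β : Fin (n + 1) →₀ ℕ) : snc (ini β) (β (Fin.last n)) = β := by
  ext l
  induction l using Fin.lastCases <;> simp
lemma snc_add_cast (β : Fin n →₀ ℕ) (i : ℕ) (l : Fin n) :
    snc β i + Finsupp.single l.castSucc 1 = snc (β + Finsupp.single l 1) i := by
  ext m
  induction m using Fin.lastCases with
  | last => simp [Finsupp.single_apply, (Fin.castSucc_lt_last l).ne]
  | cast m => simp [Finsupp.single_apply]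
lemma snc_add_last (β : Fin n →₀ ℕ) (i : ℕ) :
    snc β i + Finsupp.single (Fin.last n) 1 = snc β (i + 1) := by
  ext m
  induction m using Fin.lastCases with
  | last => simp
  | cast m => simp [Finsupp.single_apply, (Fin.castSucc_lt_last m).ne']
lemma degree_snc (β : Fin n →₀ ℕ) (i : ℕ) : (snc β i).degree = β.degree + i := by
  simp [Finsupp.degree_eq_sum, Fin.sum_univ_castSucc]

/-- the layer of last exponent `i` -/
def lay (E : Set (Fin (n + 1) →₀ ℕ)) (i : ℕ) : Set (Fin n →₀ ℕ) := {β | snc β i ∈ E}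

/-- stability with respect to the last variable -/
def Stab (a : Fin (n + 1) → ℕ) (E : Set (Fin (n + 1) →₀ ℕ)) : Prop :=
  ∀ (γ : Fin (n + 1) →₀ ℕ) (l : Fin n), γ + Finsupp.single (Fin.last n) 1 ∈ E →
    γ (Fin.last n) + 1 < a (Fin.last n) → γ + Finsupp.single l.castSucc 1 ∈ E

open Classical in
/-- number of members of degree `d` with last exponent in a given range -/
noncomputable def cnl (E : Set (Fin (n + 1) →₀ ℕ)) (d : ℕ) (P : ℕ → Prop) : ℕ :=
  ((expo (n + 1) d).filter fun β => β ∈ E ∧ P (β (Fin.last n))).card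

end Vale.Agent.P200D
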