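import Vale.Agent.P200D.Mod

/-! The twisted change of the last variable. -/

namespace Vale.Agent.P200D

open Module P200 P200L

variable {n : ℕ}

section gauss
variable {k : Type*} [DivisionRing k]

lemma Qc_zero {t : ℕ → k} {Q : ℕ → ℕ → k} {a : ℕ}
    (q3 : ∀ s r, Q (s + 1) (r + 1) = Q s (r + 1) + Q (s + 1) r * t (s + 1))
    (q4 : ∀ s r, 0 < s → 0 < r → s + r = a → Q s r = 0) (m : ℕ) :
    ∀ s r, s < a → r < a → s + r = a + m → Q s r = 0 := by
  induction m with
  | zero =>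
    intro s r hs hr h
    exact q4 s r (by omega) (by omega) h
  | succ m ih =>
    intro s r hs hr h
    obtain ⟨r, rfl⟩ : ∃ r', r = r' + 1 := ⟨r - 1, by omega⟩
    obtain ⟨s, rfl⟩ : ∃ s', s = s' + 1 := ⟨s - 1, by omega⟩
    rw [q3, ih s (r + 1) (by omega) hr (by omega), ih (s + 1) r hs (by omega) (by omega)]
    simp

lemma Qc_sum {V : Type*} [AddCommGroup V] [Module k V] {t : ℕ → k} {Q : ℕ → ℕ → k}
    (q1 : ∀ s, Q s 0 = 1) (q2 : ∀ r, Q 0 (r + 1) = Q 0 r * t 0)
    (q3 : ∀ s r, Q (s + 1) (r + 1) = Q s (r + 1) + Q (s + 1) r * t (s + 1))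
    (E : ℕ → ℕ → V) (m : ℕ) :
    ∑ p ∈ Finset.antidiagonal (m + 1), Q p.1 p.2 • E p.1 p.2 =
      ∑ p ∈ Finset.antidiagonal m, Q p.1 p.2 • (E (p.1 + 1) p.2 + t p.1 • E p.1 (p.2 + 1)) := by
  have e : ∀ p ∈ Finset.antidiagonal (m + 1), Q p.1 p.2 • E p.1 p.2 =
      (if p.1 = 0 then 0 else Q (p.1 - 1) p.2) • E p.1 p.2 +
        (if p.2 = 0 then 0 else Q p.1 (p.2 - 1) * t p.1) • E p.1 p.2 := by
    rintro ⟨s, r⟩ hp
    rw [← add_smul]
    congr 1
    have := Finset.mem_antidiagonal.1 hp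
    rcases s with _ | s <;> rcases r with _ | r
    · omega
    · simp [q2]
    · simp [q1]
    · simp [q3]
  rw [Finset.sum_congr rfl e, Finset.sum_add_distrib, Finset.Nat.sum_antidiagonal_succ,
    Finset.Nat.sum_antidiagonal_succ' (n := m)]
  simp [smul_add, Finset.sum_add_distrib, smul_smul]

end gauss

/-- the exponent with prescribed last entry and raised entry `l` -/
noncomputable def Qe (l : Fin n) (β : Fin (n + 1) →₀ ℕ) (s r : ℕ) : Fin (n + 1) →₀ ℕ :=
  β.erase (Fin.last n) + Finsupp.single (Fin.last n) s + Finsupp.single l.castSucc r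

lemma Qe_last (l : Fin n) (β : Fin (n + 1) →₀ ℕ) (s r : ℕ) : Qe l β s r (Fin.last n) = s := by
  simp [Qe, Finsupp.single_apply, (Fin.castSucc_lt_last l).ne]

lemma Qe_cast (l i : Fin n) (β : Fin (n + 1) →₀ ℕ) (s r : ℕ) :
    Qe l β s r i.castSucc = β i.castSucc + if l = i then r else 0 := by
  simp [Qe, Finsupp.single_apply, (Fin.castSucc_lt_last i).ne, (Fin.castSucc_lt_last i).ne']

lemma Qe_ext {β γ : Fin (n + 1) →₀ ℕ} (h1 : β (Fin.last n) = γ (Fin.last n))
    (h2 : ∀ i : Fin n, β i.castSucc = γ i.castSucc) : β = γ := by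
  ext i
  induction i using Fin.lastCases with
  | last => exact h1
  | cast i => exact h2 i

lemma Qe_s1 (i : Fin n) (m : ℕ) : (Finsupp.single (Fin.last n) m : Fin (n + 1) →₀ ℕ) i.castSucc = 0 :=
  Finsupp.single_eq_of_ne (Fin.castSucc_lt_last i).ne

lemma Qe_s2 (i : Fin n) (m : ℕ) : (Finsupp.single i.castSucc m : Fin (n + 1) →₀ ℕ) (Fin.last n) = 0 :=
  Finsupp.single_eq_of_ne (Fin.castSucc_lt_last i).ne'

lemma Qe_deg (l : Fin n) (β : Fin (n + 1) →₀ ℕ) {s r : ℕ} (h : s + r = β (Fin.last n)) :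
    (Qe l β s r).degree = β.degree := by
  simp only [Finsupp.degree_eq_sum, Fin.sum_univ_castSucc, Qe_last, Qe_cast,
    Finset.sum_add_distrib, Finset.sum_ite_eq, Finset.mem_univ, if_true]
  omega

theorem qop {k : Type*} [DivisionRing k] (a : Fin (n + 1) → ℕ) (l : Fin n)
    (hl : a l.castSucc ≤ a (Fin.last n)) (hg : Good k (a (Fin.last n))) :
    ∃ Ψ M τ : ((Fin (n + 1) →₀ ℕ) →₀ k) →ₗ[k] ((Fin (n + 1) →₀ ℕ) →₀ k),
      (∀ v, M v = sh k (n + 1) (Fin.last n) v + sh k (n + 1) l.castSucc (τ v)) ∧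
      (∀ v, (τ v).support ⊆ v.support) ∧
      (∀ (i : Fin n) v, τ (sh k (n + 1) i.castSucc v) = sh k (n + 1) i.castSucc (τ v)) ∧
      (∀ v, Ψ (sh k (n + 1) (Fin.last n) v) = M (Ψ v)) ∧
      (∀ (i : Fin n) v, Ψ (sh k (n + 1) i.castSucc v) = sh k (n + 1) i.castSucc (Ψ v)) ∧
      (∀ d, ∀ v ∈ Pd k (n + 1) d, Ψ v ∈ Pd k (n + 1) d) ∧
      (∀ β γ, Ψ (Finsupp.single β 1) γ ≠ 0 → γ = β ∨ γ (Fin.last n) < β (Fin.last n)) ∧
      (∀ β, Ψ (Finsupp.single β 1) β = 1) ∧
      (∀ γ : Fin (n + 1) →₀ ℕ, γ (Fin.last n) + 1 < a (Fin.last n) →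
        Ψ (Finsupp.single (γ + Finsupp.single (Fin.last n) 1) 1)
          (γ + Finsupp.single l.castSucc 1) ≠ 0) ∧
      (∀ β γ, Out a β → Ψ (Finsupp.single β 1) γ ≠ 0 → Out a γ) := by
  classical
  obtain ⟨t, Q, q1, q2, q3, q4, q5⟩ := hg
  set τ : ((Fin (n + 1) →₀ ℕ) →₀ k) →ₗ[k] ((Fin (n + 1) →₀ ℕ) →₀ k) :=
    Finsupp.linearCombination k fun β => t (β (Fin.last n)) • Finsupp.single β (1 : k) with hτ
  set Ψ : ((Fin (n + 1) →₀ ℕ) →₀ k) →ₗ[k] ((Fin (n + 1) →₀ ℕ) →₀ k) :=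
    Finsupp.linearCombination k fun β => ∑ p ∈ Finset.antidiagonal (β (Fin.last n)),
      Q p.1 p.2 • Finsupp.single (Qe l β p.1 p.2) (1 : k) with hΨ
  have τ1 : ∀ β, τ (Finsupp.single β 1) = t (β (Fin.last n)) • Finsupp.single β (1 : k) :=
    fun β => by rw [hτ, Finsupp.linearCombination_single, one_smul]
  have Ψ1 : ∀ β, Ψ (Finsupp.single β 1) = ∑ p ∈ Finset.antidiagonal (β (Fin.last n)),
      Q p.1 p.2 • Finsupp.single (Qe l β p.1 p.2) (1 : k) :=
    fun β => by rw [hΨ, Finsupp.linearCombination_single, one_smul]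
  have s1 : ∀ i β, sh k (n + 1) i (Finsupp.single β 1) =
      Finsupp.single (β + Finsupp.single i 1) (1 : k) := fun i β => Finsupp.mapDomain_single
  have ext : ∀ f g : ((Fin (n + 1) →₀ ℕ) →₀ k) →ₗ[k] ((Fin (n + 1) →₀ ℕ) →₀ k),
      (∀ β, f (Finsupp.single β 1) = g (Finsupp.single β 1)) → ∀ v, f v = g v :=
    fun f g h v => LinearMap.congr_fun (Finsupp.lhom_ext' fun β => LinearMap.ext_ring (h β)) v
  have key : ∀ β γ, Ψ (Finsupp.single β 1) γ ≠ 0 →
      ∃ s r, s + r = β (Fin.last n) ∧ Q s r ≠ 0 ∧ γ = Qe l β s r := fun β γ h => by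
    rw [Ψ1, Finsupp.finsetSum_apply] at h
    obtain ⟨p, hp, h2⟩ := Finset.exists_ne_zero_of_sum_ne_zero h
    rw [Finsupp.smul_apply, smul_eq_mul] at h2
    exact ⟨p.1, p.2, Finset.mem_antidiagonal.1 hp, left_ne_zero_of_mul h2,
      (Finsupp.single_apply_ne_zero.1 (right_ne_zero_of_mul h2)).1⟩
  have val : ∀ (β : Fin (n + 1) →₀ ℕ) s r, s + r = β (Fin.last n) →
      Ψ (Finsupp.single β 1) (Qe l β s r) = Q s r := fun β s r h => by
    rw [Ψ1, Finsupp.finsetSum_apply, Finset.sum_eq_single (s, r)]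
    · simp
    · intro p hp hne
      rw [Finsupp.smul_apply, Finsupp.single_eq_of_ne, smul_zero]
      intro e
      have e1 := congrArg (fun x => x (Fin.last n)) e
      simp only [Qe_last] at e1
      have := Finset.mem_antidiagonal.1 hp
      exact hne (Prod.ext e1.symm (by omega))
    · intro h'
      exact absurd (Finset.mem_antidiagonal.2 h) h'
  have self : ∀ β : Fin (n + 1) →₀ ℕ, Qe l β (β (Fin.last n)) 0 = β := fun β =>
    Qe_ext (Qe_last _ _ _ _) fun i => by simp [Qe_cast]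
  refine ⟨Ψ, sh k (n + 1) (Fin.last n) + sh k (n + 1) l.castSucc ∘ₗ τ, τ, fun v => rfl, fun v => ?_,
    fun i => ext (τ ∘ₗ sh k (n + 1) i.castSucc) (sh k (n + 1) i.castSucc ∘ₗ τ) fun β => ?_,
    ext (Ψ ∘ₗ sh k (n + 1) (Fin.last n)) ((_ + _) ∘ₗ Ψ) fun β => ?_,
    fun i => ext (Ψ ∘ₗ sh k (n + 1) i.castSucc) (sh k (n + 1) i.castSucc ∘ₗ Ψ) fun β => ?_,
    fun d v hv => ?_, fun β γ h => ?_, fun β => ?_, fun γ h => ?_, fun β γ h h' => ?_⟩
  · have : ∀ γ, τ v γ = v γ * t (γ (Fin.last n)) := fun γ => by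
      induction v using Finsupp.induction_linear with
      | zero => simp
      | add x y hx hy => rw [map_add, Finsupp.add_apply, Finsupp.add_apply, hx, hy, add_mul]
      | single β c =>
        rw [hτ, Finsupp.linearCombination_single]
        by_cases e : β = γ
        · simp [e]
        · simp [Finsupp.single_eq_of_ne (Ne.symm e)]
    intro γ hγ
    rw [Finsupp.mem_support_iff] at hγ ⊢
    rw [this] at hγ
    exact left_ne_zero_of_mul hγ
  · rw [LinearMap.comp_apply, LinearMap.comp_apply, s1, τ1, τ1, map_smul, s1, Finsupp.add_apply,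
      Qe_s2, add_zero]
  · rw [LinearMap.comp_apply, LinearMap.comp_apply, s1, Ψ1, Ψ1, Finsupp.add_apply,
      Finsupp.single_eq_same, Qc_sum q1 q2 q3 fun s r => Finsupp.single
        (Qe l (β + Finsupp.single (Fin.last n) 1) s r) (1 : k), map_sum]
    refine Finset.sum_congr rfl fun p _ => ?_
    rw [map_smul, LinearMap.add_apply, LinearMap.comp_apply, s1, τ1, map_smul, s1, Qe_last]
    congr 3
    · exact Qe_ext (by simp [Qe_last]) fun i => by simp [Qe_cast, Qe_s1]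
    · congr 1
      refine Qe_ext (by simp [Qe_last, Qe_s2]) fun i => ?_
      simp only [Qe_cast, Finsupp.add_apply, Qe_s1]
      simp only [Finsupp.single_apply, Fin.castSucc_inj]
      split_ifs <;> omega
  · rw [LinearMap.comp_apply, LinearMap.comp_apply, s1, Ψ1, Ψ1, Finsupp.add_apply, Qe_s2, add_zero,
      map_sum]
    refine Finset.sum_congr rfl fun p _ => ?_
    rw [map_smul, s1]
    congr 2
    refine Qe_ext (by simp [Qe_last, Qe_s2]) fun j => ?_
    simp only [Qe_cast, Finsupp.add_apply]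
    omega
  · rw [← Finsupp.sum_single v, Finsupp.sum, map_sum]
    refine Submodule.sum_mem _ fun β hβ => ?_
    rw [← mul_one (v β), ← smul_eq_mul, ← Finsupp.smul_single, map_smul]
    refine Submodule.smul_mem _ _ fun γ hγ => ?_
    obtain ⟨s, r, e1, -, rfl⟩ := key β γ (Finsupp.mem_support_iff.1 hγ)
    rw [Finset.mem_coe, mem_expo, Qe_deg l β e1]
    exact mem_expo.1 (hv hβ)
  · obtain ⟨s, r, e1, -, rfl⟩ := key β γ h
    rcases Nat.eq_zero_or_pos r with rfl | hr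
    · left
      rw [show s = β (Fin.last n) from e1, self]
    · right
      rw [Qe_last]
      omega
  · have := val β (β (Fin.last n)) 0 rfl
    rwa [self, q1] at this
  · have := val (γ + Finsupp.single (Fin.last n) 1) (γ (Fin.last n)) 1 (by simp)
    rw [show Qe l (γ + Finsupp.single (Fin.last n) 1) (γ (Fin.last n)) 1 =
      γ + Finsupp.single l.castSucc 1 from Qe_ext (by simp [Qe_last, Qe_s2]) fun i => by
        simp [Qe_cast, Qe_s1, Finsupp.single_apply]] at this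
    rw [this]
    exact q5 _ h
  · obtain ⟨s, r, e1, e2, rfl⟩ := key β γ h'
    obtain ⟨i, hi⟩ := h
    induction i using Fin.lastCases with
    | cast i => exact ⟨i.castSucc, by rw [Qe_cast]; omega⟩
    | last =>
      by_cases c1 : a (Fin.last n) ≤ s
      · exact ⟨Fin.last n, by rwa [Qe_last]⟩
      by_cases c2 : a (Fin.last n) ≤ r
      · exact ⟨l.castSucc, by rw [Qe_cast, if_pos rfl]; omega⟩
      exact absurd (Qc_zero q3 q4 (β (Fin.last n) - a (Fin.last n)) s r (by omega) (by omega)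
        (by omega)) e2

end Vale.Agent.P200D
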