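import Vale.Agent.P200D.Qop
import Vale.Agent.P200D.Iso

/-! Stabilisation with respect to the last variable. -/

namespace Vale.Agent.P200D

open Module P200 P200L

variable {n : ℕ}

lemma sf_mem {k : Type*} [DivisionRing k] {E : Set (Fin n →₀ ℕ)} {d : ℕ} {v : (Fin n →₀ ℕ) →₀ k} :
    v ∈ WE k E d ↔ ∀ β, v β ≠ 0 → β ∈ E ∧ β.degree = d := by
  simp only [WE, Finsupp.mem_supported, Set.subset_def, Finset.mem_coe, Finsupp.mem_support_iff,
    Set.mem_inter_iff, mem_expo]

lemma sf_sh {k : Type*} [DivisionRing k] {E : Set (Fin n →₀ ℕ)} (hE : Up E) {d : ℕ} (i : Fin n)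
    {v : (Fin n →₀ ℕ) →₀ k} (hv : v ∈ WE k E d) : sh k n i v ∈ WE k E (d + 1) := by
  classical
  rw [sf_mem] at hv ⊢
  intro γ hγ
  obtain ⟨δ, hδ, rfl⟩ :=
    Finset.mem_image.mp (Finsupp.mapDomain_support (Finsupp.mem_support_iff.mpr hγ))
  have := hv δ (Finsupp.mem_support_iff.mp hδ)
  exact ⟨hE _ this.1 i, by rw [map_add, this.2, Finsupp.degree_single]⟩

lemma sf_rank (k : Type*) [DivisionRing k] {α : Type*} (T : Finset α) :
    finrank k (Finsupp.supported k k (T : Set α)) = T.card := by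
  rw [(Finsupp.supportedEquivFinsupp (T : Set α)).finrank_eq, finrank_finsupp_self]
  simp

/-- the part of large last exponent -/
noncomputable def sfF (k : Type*) [DivisionRing k] (n c : ℕ) :
    ((Fin (n + 1) →₀ ℕ) →₀ k) →ₗ[k] ((Fin (n + 1) →₀ ℕ) →₀ k) where
  toFun := Finsupp.filter fun β => c ≤ β (Fin.last n)
  map_add' _ _ := Finsupp.filter_add
  map_smul' _ _ := Finsupp.filter_smul

lemma sfF_apply {k : Type*} [DivisionRing k] (c : ℕ) (v : (Fin (n + 1) →₀ ℕ) →₀ k)
    (β : Fin (n + 1) →₀ ℕ) : sfF k n c v β = if c ≤ β (Fin.last n) then v β else 0 :=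
  Finsupp.filter_apply _ _ _

theorem shift {k : Type*} [DivisionRing k] (a : Fin (n + 1) → ℕ) (l : Fin n)
    (hl : a l.castSucc ≤ a (Fin.last n)) (hg : Good k (a (Fin.last n)))
    (E : Set (Fin (n + 1) →₀ ℕ)) (hE : Up E) (hO : ∀ β, Out a β → β ∈ E) :
    ∃ E' : Set (Fin (n + 1) →₀ ℕ), Up E' ∧ (∀ β, Out a β → β ∈ E') ∧ (∀ d, cnt E' d = cnt E d) ∧
      (∀ p j, tE k E p j ≤ tE k E' p j) ∧
      (∀ d κ, cnl E' d (κ ≤ ·) ≤ cnl E d (κ ≤ ·)) ∧
      ∀ γ : Fin (n + 1) →₀ ℕ, γ + Finsupp.single (Fin.last n) 1 ∈ E →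
        γ (Fin.last n) + 1 < a (Fin.last n) → γ + Finsupp.single l.castSucc 1 ∉ E →
        cnl E' (γ.degree + 1) (γ (Fin.last n) + 1 ≤ ·) <
          cnl E (γ.degree + 1) (γ (Fin.last n) + 1 ≤ ·) := by
  classical
  obtain ⟨Ψ, M, τ, h1, h2, h3, h4, h5, h6, h7, h8, h9, h10⟩ := qop a l hl hg
  have hinj : Function.Injective Ψ := by
    rw [injective_iff_map_eq_zero]
    intro v hv
    exact tri_inj Ψ h7 h8 0 v (fun _ _ => Nat.zero_le _) fun γ _ => by rw [hv]; rfl
  let m : MonomialOrder (Fin (n + 1)) := MonomialOrder.lex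
  let κ : (Fin (n + 1) →₀ ℕ) → ℕ ×ₗ m.syn := fun β => toLex (β (Fin.last n), m.toSyn β)
  have hκ : Function.Injective κ := by
    intro β γ h
    have := congrArg (fun x => (ofLex x).2) h
    exact m.toSyn.injective this
  have hκa : ∀ β γ e, κ β ≤ κ γ → κ (β + e) ≤ κ (γ + e) := by
    intro β γ e h
    simp only [κ, Prod.Lex.toLex_le_toLex, Finsupp.add_apply, map_add] at h ⊢
    rcases h with h | ⟨h, h'⟩
    · left; omega
    · right; exact ⟨by omega, by gcongr⟩
  have hκz : ∀ β γ, κ β ≤ κ γ → β (Fin.last n) ≤ γ (Fin.last n) := by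
    intro β γ h
    simp only [κ, Prod.Lex.toLex_le_toLex] at h
    omega
  let W : ℕ → Submodule k ((Fin (n + 1) →₀ ℕ) →₀ k) := fun d =>
    Pd k (n + 1) d ⊓ (WE k E d).comap Ψ
  have hfin : ∀ d, FiniteDimensional k (W d) := fun d =>
    Submodule.finiteDimensional_of_le inf_le_left
  have hdeg : ∀ d, ∀ w ∈ W d, ∀ β, w β ≠ 0 → β.degree = d := fun d w hw β h0 =>
    mem_expo.mp (hw.1 (Finsupp.mem_support_iff.mpr h0))
  have hWsh : ∀ d i, ∀ w ∈ W d, sh k (n + 1) i w ∈ W (d + 1) := by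
    intro d i w hw
    refine ⟨sh_Pd i d w hw.1, Submodule.mem_comap.mpr ?_⟩
    have hw2 : Ψ w ∈ WE k E d := hw.2
    induction i using Fin.lastCases with
    | last =>
      rw [h4, h1]
      exact add_mem (sf_sh hE _ hw2) (sf_sh hE _ fun β hβ => hw2 (h2 _ hβ))
    | cast i =>
      rw [h5]
      exact sf_sh hE _ hw2
  let E' : Set (Fin (n + 1) →₀ ℕ) :=
    {β | ∃ w ∈ W β.degree, w β ≠ 0 ∧ ∀ γ ∈ w.support, κ β ≤ κ γ}
  let Wc : ℕ → ℕ → Submodule k ((Fin (n + 1) →₀ ℕ) →₀ k) := fun d c =>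
    W d ⊓ Finsupp.supported k k {β | c ≤ β (Fin.last n)}
  let Tc : ℕ → ℕ → Submodule k ((Fin (n + 1) →₀ ℕ) →₀ k) := fun d c =>
    Finsupp.supported k k
      (((expo (n + 1) d).filter fun β => β ∈ E ∧ c ≤ β (Fin.last n) : Finset _) : Set _)
  have hfc : ∀ d c, FiniteDimensional k (Wc d c) := fun d c =>
    Submodule.finiteDimensional_of_le inf_le_left
  have hft : ∀ d c, FiniteDimensional k (Tc d c) := fun d c =>
    Module.Finite.equiv (Finsupp.supportedEquivFinsupp _).symm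
  have c1 : ∀ d c, cnl E' d (c ≤ ·) = finrank k ((Wc d c).map (sfF k n c ∘ₗ Ψ)) := by
    intro d c
    rw [finrank_map_inj]
    · refine card_lead κ hκ (Wc d c) _ fun β => ?_
      simp only [Finset.mem_filter, mem_expo]
      constructor
      · rintro ⟨rfl, ⟨w, hw, h0, hm⟩, hc⟩
        exact ⟨w, ⟨hw, fun γ hγ => hc.trans (hκz _ _ (hm γ hγ))⟩, h0, hm⟩
      · rintro ⟨w, hw, h0, hm⟩
        have := hdeg d w hw.1 β h0
        subst this
        exact ⟨rfl, ⟨w, hw.1, h0, hm⟩, hw.2 (Finsupp.mem_support_iff.mpr h0)⟩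
    · intro w hw h0
      refine tri_inj Ψ h7 h8 c w (fun β hβ => hw.2 hβ) fun γ hγ => ?_
      have := DFunLike.congr_fun h0 γ
      rwa [LinearMap.comp_apply, sfF_apply, if_pos hγ] at this
  have c2 : ∀ d c, finrank k (Tc d c) = cnl E d (c ≤ ·) := fun d c => by
    rw [sf_rank]
    unfold cnl
    congr
  have c3 : ∀ d c, (Wc d c).map (sfF k n c ∘ₗ Ψ) ≤ Tc d c := by
    rintro d c _ ⟨w, hw, rfl⟩ β hβ
    have h0 := Finsupp.mem_support_iff.mp hβ
    rw [LinearMap.comp_apply, sfF_apply] at h0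
    split_ifs at h0 with hc
    · have := sf_mem.mp hw.1.2 β h0
      simp only [Finset.coe_filter, mem_expo]
      exact ⟨this.2, this.1, hc⟩
    · exact absurd rfl h0
  refine ⟨E', ?_, ?_, ?_, ?_, ?_, ?_⟩
  · rintro β ⟨w, hw, hw0, hwm⟩ i
    refine ⟨sh k (n + 1) i w, ?_, ?_, ?_⟩
    · rw [map_add, Finsupp.degree_single]
      exact hWsh _ i w hw
    · rwa [Finsupp.lmapDomain_apply, Finsupp.mapDomain_apply (add_left_injective _)]
    · intro γ hγ
      obtain ⟨δ, hδ, rfl⟩ := Finset.mem_image.mp (Finsupp.mapDomain_support hγ)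
      exact hκa _ _ _ (hwm δ hδ)
  · intro β hβ
    have hP : Finsupp.single β (1 : k) ∈ Pd k (n + 1) β.degree :=
      Finsupp.single_mem_supported _ _ (by simp [mem_expo])
    refine ⟨Finsupp.single β 1, ⟨hP, Submodule.mem_comap.mpr (sf_mem.mpr fun γ hγ =>
      ⟨hO γ (h10 β γ hβ hγ), mem_expo.mp (h6 _ _ hP (Finsupp.mem_support_iff.mpr hγ))⟩)⟩,
      by simp, fun γ hγ => ?_⟩
    rw [Finset.mem_singleton.mp (Finsupp.support_single_subset hγ)]
  · intro d
    have e1 : cnt E' d = finrank k (W d) := by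
      refine card_lead κ hκ (W d) _ fun β => ?_
      simp only [Finset.mem_filter, mem_expo]
      constructor
      · rintro ⟨rfl, h⟩
        exact h
      · rintro ⟨w, hw, h0, hm⟩
        have := hdeg d w hw β h0
        subst this
        exact ⟨rfl, w, hw, h0, hm⟩
    have e2 : (Pd k (n + 1) d).map Ψ = Pd k (n + 1) d := by
      refine Submodule.eq_of_le_of_finrank_le ?_
        (finrank_map_inj Ψ _ fun w _ h => hinj (by rw [h, map_zero])).ge
      rintro _ ⟨w, hw, rfl⟩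
      exact h6 d w hw
    have e3 : (W d).map Ψ = WE k E d := by
      rw [← Submodule.map_inf_eq_map_inf_comap, e2]
      exact inf_eq_right.mpr (Finsupp.supported_mono Set.inter_subset_right)
    have e4 : WE k E d =
        Finsupp.supported k k (((expo (n + 1) d).filter (· ∈ E) : Finset _) : Set _) := by
      unfold WE
      congr 1
      ext β
      simp [and_comm]
    rw [e1, ← finrank_map_inj Ψ (W d) fun w _ h => hinj (by rw [h, map_zero]), e3, e4, sf_rank]
    unfold cnt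
    congr
  · intro p j
    rw [← tt_twist l Ψ M τ h1 h2 h3 h4 h5 h6 hinj E p j]
    refine tt_lead κ hκ hκa W _ (fun _ => inf_le_left) (fun d w hw β h0 hm => ?_) p j
    have := hdeg d w hw β h0
    subst this
    exact Finsupp.single_mem_supported _ _ ⟨⟨w, hw, h0, hm⟩, by simp [mem_expo]⟩
  · intro d c
    rw [c1, ← c2]
    exact Submodule.finrank_mono (c3 d c)
  · intro γ g1 g2 g3
    rw [c1, ← c2]
    refine Submodule.finrank_lt_finrank_of_lt (lt_of_le_of_ne (c3 _ _) fun he => g3 ?_)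
    obtain ⟨β, hβ⟩ : ∃ β, β = γ + Finsupp.single (Fin.last n) 1 := ⟨_, rfl⟩
    have hz : β (Fin.last n) = γ (Fin.last n) + 1 := by simp [hβ]
    have hs : Finsupp.single β (1 : k) ∈ Tc (γ.degree + 1) (γ (Fin.last n) + 1) := by
      refine Finsupp.single_mem_supported _ _ ?_
      simp only [Finset.coe_filter, mem_expo]
      exact ⟨by rw [hβ, map_add, Finsupp.degree_single], hβ ▸ g1, hz.ge⟩
    rw [← he] at hs
    obtain ⟨w, hw, hwe⟩ := hs
    have hv : w - Finsupp.single β 1 = 0 := by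
      refine tri_inj Ψ h7 h8 (γ (Fin.last n) + 1) _ (fun δ hδ => ?_) fun δ hδ => ?_
      · rcases Finset.mem_union.mp (Finsupp.support_sub hδ) with h | h
        · exact hw.2 h
        · rw [Finset.mem_singleton.mp (Finsupp.support_single_subset h)]
          exact hz.ge
      · have := DFunLike.congr_fun hwe δ
        rw [LinearMap.comp_apply, sfF_apply, if_pos hδ] at this
        rw [map_sub, Finsupp.sub_apply, this]
        by_cases hd : δ = β
        · rw [hd, h8, Finsupp.single_eq_same, sub_self]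
        · rw [Finsupp.single_eq_of_ne hd, zero_sub, neg_eq_zero]
          by_contra hne
          rcases h7 β δ hne with h | h
          · exact hd h
          · omega
    rw [sub_eq_zero] at hv
    have hw2 : Ψ w ∈ WE k E (γ.degree + 1) := hw.1.2
    rw [hv, hβ] at hw2
    exact (sf_mem.mp hw2 _ (h9 γ g2)).1

theorem stab {k : Type*} [DivisionRing k] (a : Fin (n + 1) → ℕ) (ha : Monotone a)
    (hg : Good k (a (Fin.last n))) (E : Set (Fin (n + 1) →₀ ℕ)) (hE : Up E)
    (hO : ∀ β, Out a β → β ∈ E) :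
    ∃ E' : Set (Fin (n + 1) →₀ ℕ), Up E' ∧ (∀ β, Out a β → β ∈ E') ∧ (∀ d, cnt E' d = cnt E d) ∧
      (∀ p j, tE k E p j ≤ tE k E' p j) ∧ Stab a E' := by
  obtain ⟨N, hN⟩ : ∃ N, N = ∑ i, a i + 1 := ⟨_, rfl⟩
  obtain ⟨μ, hμ⟩ : ∃ μ, μ = ∑ d ∈ Finset.range N, ∑ c ∈ Finset.range N, cnl E d (c ≤ ·) :=
    ⟨_, rfl⟩
  induction μ using Nat.strong_induction_on generalizing E with
  | _ μ ih =>
    by_cases hS : Stab a E
    · exact ⟨E, hE, hO, fun _ => rfl, fun _ _ => le_rfl, hS⟩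
    · unfold Stab at hS
      push Not at hS
      obtain ⟨γ, l, g1, g2, g3⟩ := hS
      obtain ⟨E', u1, u2, u3, u4, u5, u6⟩ := shift a l (ha (Fin.le_last _)) hg E hE hO
      have d1 : γ.degree + 1 < N := by
        have h : ∀ i, (γ + Finsupp.single l.castSucc 1 : Fin (n + 1) →₀ ℕ) i ≤ a i := fun i => by
          by_contra hne
          exact g3 (hO _ ⟨i, by omega⟩)
        have h2 := Finset.sum_le_sum fun i (_ : i ∈ Finset.univ) => h i
        rw [← Finsupp.degree_eq_sum, map_add, Finsupp.degree_single] at h2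
        omega
      have d2 : γ (Fin.last n) + 1 < N := by
        have := Finset.single_le_sum (f := a) (fun _ _ => Nat.zero_le _)
          (Finset.mem_univ (Fin.last n))
        omega
      have hlt : ∑ d ∈ Finset.range N, ∑ c ∈ Finset.range N, cnl E' d (c ≤ ·) < μ := by
        rw [hμ]
        refine Finset.sum_lt_sum (fun d _ => Finset.sum_le_sum fun c _ => u5 d c)
          ⟨γ.degree + 1, Finset.mem_range.mpr d1, ?_⟩
        exact Finset.sum_lt_sum (fun c _ => u5 _ c)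
          ⟨γ (Fin.last n) + 1, Finset.mem_range.mpr d2, u6 γ g1 g2 g3⟩
      obtain ⟨E'', v1, v2, v3, v4, v5⟩ := ih _ hlt E' u1 u2 rfl
      exact ⟨E'', v1, v2, fun d => (v3 d).trans (u3 d), fun p j => (u4 p j).trans (v4 p j), v5⟩

end Vale.Agent.P200D
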